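import Vale.Agent.P097.H402.Alg.Defs
import Vale.Agent.P097.H244.K4

/-! # P097 / ALG-K1: the law at a simple pole with `σ = -2` is the law `LawE` of a multiple pole. -/

set_option linter.all false

open Complex Metric Filter Topology Set

namespace Vale.Agent.P097.H123

open Vale.Agent.P097.H402.Rat Vale.Agent.P097.Alg

theorem lawE_of (f : ℂ → ℂ) (h : LawB (-2) f) : LawE (fun A => f (1 + A)) := by
  have hc : Tendsto (fun A : ℂ => 1 + A) (𝓝 0) (𝓝 1) := by
    have : Continuous (fun A : ℂ => 1 + A) := by fun_prop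
    simpa using this.tendsto 0
  have hc2 : Tendsto (fun A : ℂ => A - 1) (𝓝 1) (𝓝 0) := by
    have : Continuous (fun A : ℂ => A - 1) := by fun_prop
    simpa using this.tendsto 1
  refine ⟨?_, ?_, ?_, ?_⟩
  · have h1 : AnalyticAt ℂ (fun A : ℂ => 1 + A) 0 := by fun_prop
    have h2 : AnalyticAt ℂ f ((fun A : ℂ => 1 + A) 0) := by simpa using h.an
    exact h2.comp h1
  · intro h0
    apply h.ne
    have := hc2.eventually h0
    filter_upwards [this] with A hA
    have e : 1 + (A - 1) = A := by ring
    rwa [e] at hA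
  · filter_upwards [hc.eventually h.refl] with A hA
    have e : 2 - (1 + A) = 1 + -A := by ring
    rwa [e] at hA
  · have e0 : ∀ τ : ℂ, aB (-2) τ = 1 / Ex (-τ) := by
      intro τ
      have e1 : (((-2 : ℝ) : ℂ) + 2) * τ = 0 := by push_cast; ring
      have e2 : (((-2 : ℝ) : ℂ) + 1) * τ = -τ := by push_cast; ring
      unfold aB
      rw [e1, e2]
      simp [Ex]
    filter_upwards [h.chord] with x hx
    rw [e0, e0, neg_neg] at hx
    have e3 : (((-2 : ℝ) : ℂ) + 3) * x = x := by push_cast; ring
    rw [e3] at hx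
    have e4 : ∀ z : ℂ, 1 + (z - 1) = z := by intro z; ring
    simp only [e4]
    exact hx

/-- ALG-K1 -/
theorem kb2 : KB2 := fun f h => Vale.Agent.P097.H244.pk4 _ (lawE_of f h)

end Vale.Agent.P097.H123
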