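import Vale.Agent.P097.H123.StarE
import Vale.Agent.P097.H456.Fct.F1

/-! # P097 / FCT / S11: assembly of the star word (helper123) -/

set_option linter.all false

open Complex Filter Topology Set Metric
open Vale.Agent.P097.TA

namespace Vale.Agent.P097.H123.Star

open Vale.Agent.P097.H202 Vale.Agent.P097.H456.Fct

variable {κ Λ : ℝ} {H Φ : ℂ → ℂ} {r e' : ℝ} {α p : ℂ → ℂ → ℂ} {J : ℂ → ℂ}

/-- the natural base line has the tangency invariant -/
theorem TI_base (T : Ctx κ Λ H Φ r e' α p J) (t₀ : ℝ) : TI (t₀ : ℂ) (nat α 1 0) (nat p 1 0) := by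
  have L := T.ln
  obtain ⟨D, hD, hD0, hD1⟩ := exists_D T (le_refl 1) t₀ 0
  have hA : AnalyticAt ℂ (nat α 1 0) ((t₀ : ℂ), 0) :=
    nat_an L.jα (by rw [sub_zero' (le_refl 1)]; exact real_mem L t₀ 0)
  set ψ₀ := nat α 1 0 ((t₀ : ℂ), 0) with hψ₀
  have hstr : ψ₀ ∈ Str κ := by
    have h1 : H456.Fct.mid (nat α 1 0) (nat α 1 0) ((t₀ : ℂ), 0) ∈ Str κ :=
      (ev_mid T (le_refl 1) t₀ 0 0).self_of_nhds
    have h2 : H456.Fct.mid (nat α 1 0) (nat α 1 0) ((t₀ : ℂ), 0) = ψ₀ := by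
      show (nat α 1 0 ((t₀ : ℂ), 0) + nat α 1 0 ((t₀ : ℂ), 0)) / 2 = ψ₀
      rw [← hψ₀]
      ring
    rwa [h2] at h1
  have hH : AnalyticAt ℂ H ψ₀ := H_an T hstr
  obtain ⟨K, k1, k2, k3⟩ := exists_K hH
  have hK0 : K (ψ₀, 0) ≠ 0 := by
    intro h0
    rw [h0, mul_zero] at k3
    exact curv_ne T hstr (neg_eq_zero.mp k3.symm)
  have hpair : AnalyticAt ℂ (fun y : ℂ × ℂ => (nat α 1 0 y, y.2 * D y)) ((t₀ : ℂ), 0) :=
    AnalyticAt.prod hA (analyticAt_snd.mul hD)
  have hpair0 : (nat α 1 0 ((t₀ : ℂ), 0), ((t₀ : ℂ), (0 : ℂ)).2 * D ((t₀ : ℂ), 0)) =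
      (ψ₀, (0 : ℂ)) := by
    rw [← hψ₀]; simp
  have hpairt : Tendsto (fun y : ℂ × ℂ => (nat α 1 0 y, y.2 * D y)) (𝓝 ((t₀ : ℂ), (0 : ℂ)))
      (𝓝 (ψ₀, (0 : ℂ))) := by
    have := hpair.continuousAt.tendsto
    rwa [hpair0] at this
  have hrel : ∀ᶠ y in 𝓝 ((t₀ : ℂ), (0 : ℂ)),
      nat p 1 0 y = H (nat α 1 0 y) + (y.2 * D y) ^ 2 * K (nat α 1 0 y, y.2 * D y) := by
    filter_upwards [hpairt.eventually k2, hD1, nat_let L (le_refl 1) t₀ 0] with y a1 a2 a3
    have b1 := a3.1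
    have b2 : (nat α 1 (0 + 1) y - nat α 1 0 y) / 2 = y.2 * D y := by
      rw [a2, pow_one]; ring
    have b3 : (nat α 1 0 y + nat α 1 (0 + 1) y) / 2 = nat α 1 0 y + y.2 * D y := by
      linear_combination b2
    rw [b2, b3] at b1
    rw [← a1, b1]
    simp only [sup]
    rw [add_sub_cancel_left]
  have hS0 : nat p 1 0 ((t₀ : ℂ), 0) = H ψ₀ := by
    have := hrel.self_of_nhds
    rw [this, ← hψ₀]
    simp
  refine ⟨fun v => H v.1 - v.2, ?_, ?_, fun y => -(D y ^ 2 * K (nat α 1 0 y, y.2 * D y)), ?_, ?_, ?_⟩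
  · rw [hS0]
    exact AnalyticAt.sub (AnalyticAt.comp_of_eq (g := H) (f := fun v : ℂ × ℂ => v.1) hH
      analyticAt_fst rfl) analyticAt_snd
  · rw [hS0]
    intro hz
    have f0 : AnalyticAt ℂ (fun v : ℂ × ℂ => H v.1 - v.2) (ψ₀, H ψ₀) :=
      AnalyticAt.sub (AnalyticAt.comp_of_eq (g := H) (f := fun v : ℂ × ℂ => v.1) hH
        analyticAt_fst rfl) analyticAt_snd
    have f1 : ds (fun v : ℂ × ℂ => H v.1 - v.2) (ψ₀, H ψ₀) = 0 := by
      unfold ds
      rw [hz]
      rfl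
    have f2 : HasDerivAt (fun s : ℂ => H ψ₀ - s) (-1) (H ψ₀) :=
      (hasDerivAt_id (H ψ₀)).const_sub (H ψ₀)
    have f3 : HasDerivAt (fun s : ℂ => H ψ₀ - s)
        (ds (fun v : ℂ × ℂ => H v.1 - v.2) (ψ₀, H ψ₀)) (H ψ₀) :=
      hasDerivAt_snd (f := fun v : ℂ × ℂ => H v.1 - v.2) f0.differentiableAt
    have f4 := f2.unique f3
    rw [f1] at f4
    exact (neg_ne_zero.mpr one_ne_zero) f4
  · exact ((hD.pow 2).mul (k1.comp_of_eq hpair hpair0)).neg
  · have e1 : K (nat α 1 0 ((t₀ : ℂ), 0), ((t₀ : ℂ), (0 : ℂ)).2 * D ((t₀ : ℂ), 0)) = K (ψ₀, 0) :=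
      congrArg K hpair0
    show -(D ((t₀ : ℂ), 0) ^ 2 *
      K (nat α 1 0 ((t₀ : ℂ), 0), ((t₀ : ℂ), (0 : ℂ)).2 * D ((t₀ : ℂ), 0))) ≠ 0
    rw [e1]
    exact neg_ne_zero.mpr (mul_ne_zero (pow_ne_zero 2 hD0) hK0)
  · filter_upwards [hrel] with y a1
    show H (nat α 1 0 y) - nat p 1 0 y = _
    rw [a1]
    ring

/-- dependent choice along a finite chain -/
theorem chain_choice {A B : Type*} [Inhabited B] (n : ℕ) (L : ℕ → A → Prop)
    (R : ℕ → A → A → B → Prop) (x0 : A) (h0 : L 0 x0)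
    (hs : ∀ j < n, ∀ x, L j x → ∃ y b, L (j + 1) y ∧ R j x y b) :
    ∃ (x : ℕ → A) (b : ℕ → B), x 0 = x0 ∧ (∀ j ≤ n, L j (x j)) ∧
      ∀ j < n, R j (x j) (x (j + 1)) (b j) := by
  induction n with
  | zero =>
    refine ⟨fun _ => x0, fun _ => default, rfl, ?_, fun j hj => absurd hj (Nat.not_lt_zero j)⟩
    intro j hj
    obtain rfl : j = 0 := by omega
    exact h0
  | succ n ih =>
    obtain ⟨x, b, hx0, hL, hR⟩ := ih fun j hj => hs j (by omega)
    obtain ⟨y, c, hy, hc⟩ := hs n (by omega) (x n) (hL n le_rfl)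
    refine ⟨fun j => if j ≤ n then x j else y, fun j => if j < n then b j else c, ?_, ?_, ?_⟩
    · simp [hx0]
    · intro j hj
      by_cases h : j ≤ n
      · simpa [h] using hL j h
      · obtain rfl : j = n + 1 := by omega
        simpa using hy
    · intro j hj
      by_cases h : j < n
      · have h1 : j ≤ n := h.le
        have h2 : j + 1 ≤ n := h
        simp only [h, h1, h2, if_true]
        exact hR j h
      · obtain rfl : j = n := by omega
        simpa using hc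

/-- the jet of the support function of the mirror at the vertex `(P, Q)` with normal `E` -/
noncomputable def jet (E P Q : ℂ × ℂ → ℂ) : ℕ → ℂ × ℂ → ℂ
  | 0 => fun u => (P u / E u + Q u * E u) / 2
  | 1 => fun u => I * (Q u * E u - P u / E u) / 2
  | (k + 2) => fun u => dt (jet E P Q (k + 1)) u * (I * E u) / dt E u

theorem jet_eq {E P Q ψ : ℂ × ℂ → ℂ} {h : ℂ → ℂ} {x₀ : ℂ × ℂ} (hψ : AnalyticAt ℂ ψ x₀)
    (hh : AnalyticAt ℂ h (ψ x₀)) (hψt : dt ψ x₀ ≠ 0)
    (hE : ∀ᶠ u in 𝓝 x₀, Complex.exp (I * ψ u) = E u)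
    (hPQ : ∀ᶠ u in 𝓝 x₀, P u = (h (ψ u) + I * deriv h (ψ u)) * Complex.exp (I * ψ u) ∧
        Q u = (h (ψ u) - I * deriv h (ψ u)) * Complex.exp (-(I * ψ u))) (i : ℕ) :
    ∀ᶠ u in 𝓝 x₀, jet E P Q i u = iteratedDeriv i h (ψ u) := by
  have hexp1 : ∀ z : ℂ, Complex.exp (-(I * z)) * Complex.exp (I * z) = 1 := by
    intro z
    rw [← Complex.exp_add, neg_add_cancel, Complex.exp_zero]
  have hq : ∀ᶠ u in 𝓝 x₀, P u / E u = h (ψ u) + I * deriv h (ψ u) ∧
      Q u * E u = h (ψ u) - I * deriv h (ψ u) := by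
    filter_upwards [hE, hPQ] with u a1 a2
    rw [a2.1, a2.2, ← a1]
    constructor
    · rw [mul_div_cancel_right₀ _ (Complex.exp_ne_zero _)]
    · rw [mul_assoc, hexp1, mul_one]
  have key : ∀ i : ℕ, (∀ᶠ u in 𝓝 x₀, jet E P Q i u = iteratedDeriv i h (ψ u)) ∧
      ∀ᶠ u in 𝓝 x₀, jet E P Q (i + 1) u = iteratedDeriv (i + 1) h (ψ u) := by
    intro i
    induction i with
    | zero =>
      constructor
      · filter_upwards [hq] with u a1
        show (P u / E u + Q u * E u) / 2 = iteratedDeriv 0 h (ψ u)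
        rw [a1.1, a1.2, iteratedDeriv_zero]
        ring
      · filter_upwards [hq] with u a1
        show I * (Q u * E u - P u / E u) / 2 = iteratedDeriv (0 + 1) h (ψ u)
        rw [a1.1, a1.2, zero_add, iteratedDeriv_one]
        linear_combination (-deriv h (ψ u)) * I_mul_I
    | succ k ih =>
      refine ⟨ih.2, ?_⟩
      have e1 : jet E P Q (k + 1) =ᶠ[𝓝 x₀] fun u => iteratedDeriv (k + 1) h (ψ u) := ih.2
      have e2 : E =ᶠ[𝓝 x₀] fun u => (fun z => Complex.exp (I * z)) (ψ u) := by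
        filter_upwards [hE] with u hu
        exact hu.symm
      have hi : AnalyticAt ℂ (iteratedDeriv (k + 1) h) (ψ x₀) := by
        rw [iteratedDeriv_eq_iterate]
        exact hh.iterated_deriv (k + 1)
      filter_upwards [e1.eventually_nhds, e2.eventually_nhds, hψ.eventually_analyticAt,
        hψ.continuousAt.tendsto.eventually hi.eventually_analyticAt, hE,
        (analyticAt_dt hψ).continuousAt.eventually_ne hψt] with u a1 a2 a3 a4 a5 a6
      have b1 : dt (jet E P Q (k + 1)) u = iteratedDeriv (k + 2) h (ψ u) * dt ψ u := by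
        have b0 : iteratedDeriv (k + 2) h = deriv (iteratedDeriv (k + 1) h) := iteratedDeriv_succ
        rw [dt_congr a1, dt_comp a4.differentiableAt a3.differentiableAt, b0]
      have hd : HasDerivAt (fun z : ℂ => Complex.exp (I * z)) (Complex.exp (I * ψ u) * I)
          (ψ u) := by
        have e0 : HasDerivAt (fun z : ℂ => I * z) (I * 1) (ψ u) :=
          (hasDerivAt_id (ψ u)).const_mul I
        rw [mul_one] at e0
        exact e0.cexp
      have b2 : dt E u = Complex.exp (I * ψ u) * I * dt ψ u := by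
        rw [dt_congr a2, dt_comp (F := fun z => Complex.exp (I * z)) hd.differentiableAt
          a3.differentiableAt, hd.deriv]
      show dt (jet E P Q (k + 1)) u * (I * E u) / dt E u = iteratedDeriv (k + 2) h (ψ u)
      rw [b1, b2, ← a5]
      have h1 : Complex.exp (I * ψ u) * I * dt ψ u ≠ 0 :=
        mul_ne_zero (mul_ne_zero (Complex.exp_ne_zero _) I_ne_zero) a6
      rw [div_eq_iff h1]
      ring
  exact (key i).1

/-- analyticity of the relation -/
theorem analyticAt_rel {m : ℕ} (Pm : MvPolynomial (Fin (m + 2)) ℂ) {G : ℂ → ℂ} {z : ℂ}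
    (hG : AnalyticAt ℂ G z) :
    AnalyticAt ℂ (fun z => MvPolynomial.eval (Fin.cons (exp (I * z))
      fun i : Fin (m + 1) => iteratedDeriv i G z) Pm) z := by
  have hx : ∀ i : Fin (m + 2), AnalyticAt ℂ (fun z => (Fin.cons (exp (I * z))
      (fun i : Fin (m + 1) => iteratedDeriv i G z) : Fin (m + 2) → ℂ) i) z := by
    intro i
    refine Fin.cases ?_ (fun j => ?_) i
    · have : AnalyticAt ℂ (fun z : ℂ => Complex.exp (I * z)) z := by fun_prop
      simpa using this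
    · have h1 : AnalyticAt ℂ (iteratedDeriv (j : ℕ) G) z := by
        rw [iteratedDeriv_eq_iterate]
        exact hG.iterated_deriv _
      simpa using h1
  induction Pm using MvPolynomial.induction_on with
  | C a => simpa using analyticAt_const
  | add p q hp hq =>
    have h := hp.fun_add hq
    simpa only [map_add] using h
  | mul_X p i hp =>
    have h := hp.fun_mul (hx i)
    simpa only [map_mul, MvPolynomial.eval_X] using h

end Vale.Agent.P097.H123.Star
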