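import Vale.Agent.P097.H435.S10
import Vale.Agent.P097.H82.Reg
import Vale.Agent.P097.H123.StarF

/-! # P097 / FCT / F3 : transfer of the algebraic differential relations of the mirrors (helper123) -/

set_option linter.all false

open Complex Filter Topology Set Metric PowerSeries

namespace Vale.Agent.P097.H123.Star

open Vale.Agent.P097.H82 Vale.Agent.P097.H435.S10

/-- jets of the support function in a field with a derivation -/
def jetL {F : Type*} [Field F] (D : F → F) (i E P Q : F) : ℕ → F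
  | 0 => (P / E + Q * E) / 2
  | 1 => i * (Q * E - P / E) / 2
  | (k + 2) => D (jetL D i E P Q (k + 1)) * (i * E) / D E

theorem map_jetL {F F' : Type*} [Field F] [Field F'] (σ : F →+* F') {D : F → F} {D' : F' → F'}
    (h : ∀ x, σ (D x) = D' (σ x)) (i E P Q : F) (k : ℕ) :
    σ (jetL D i E P Q k) = jetL D' (σ i) (σ E) (σ P) (σ Q) k := by
  have key : σ (jetL D i E P Q k) = jetL D' (σ i) (σ E) (σ P) (σ Q) k ∧
      σ (jetL D i E P Q (k + 1)) = jetL D' (σ i) (σ E) (σ P) (σ Q) (k + 1) := by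
    induction k with
    | zero =>
      have h2 : σ 2 = 2 := map_ofNat σ 2
      constructor
      · simp [jetL, h2]
      · simp [jetL, h2]
    | succ k ih =>
      refine ⟨ih.2, ?_⟩
      have e1 : jetL D i E P Q (k + 1 + 1) = D (jetL D i E P Q (k + 1)) * (i * E) / D E := rfl
      have e2 : jetL D' (σ i) (σ E) (σ P) (σ Q) (k + 1 + 1) =
        D' (jetL D' (σ i) (σ E) (σ P) (σ Q) (k + 1)) * (σ i * σ E) / D' (σ E) := rfl
      rw [e1, e2, map_div₀, map_mul, map_mul, h, h, ih.2]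
  exact key.1

variable {κ : Type*} [Field κ] {d : κ → κ} {L : Type*} [Field L] [Algebra κ⟦X⟧ L]
  [IsFractionRing κ⟦X⟧ L] {Dt Ds : L → L} {A : Type*} [CommRing A] {θ : A →+* κ⟦X⟧}
  {ev : A → ℂ × ℂ → ℂ} {R : κ⟦X⟧ → (ℂ × ℂ → ℂ) → Prop} {t0 : ℂ}

/-- realisation of an element of the field of fractions -/
def RL (L : Type*) [Field L] [Algebra κ⟦X⟧ L] (R : κ⟦X⟧ → (ℂ × ℂ → ℂ) → Prop) (x : L)
    (F : ℂ × ℂ → ℂ) : Prop :=
  ∃ f : κ⟦X⟧, algebraMap κ⟦X⟧ L f = x ∧ R f F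

section

variable {x y : L} {F G : ℂ × ℂ → ℂ}

theorem RL.an (C : Calc d t0 θ ev R) (h : RL L R x F) : AnalyticAt ℂ F (t0, 0) := by
  obtain ⟨f, _, hf⟩ := h
  exact C.an hf

theorem RL.congr (C : Calc d t0 θ ev R) (h : RL L R x F) (hFG : F =ᶠ[𝓝 (t0, (0 : ℂ))] G) :
    RL L R x G := by
  obtain ⟨f, h1, hf⟩ := h
  exact ⟨f, h1, C.congr hf hFG⟩

theorem RL.add (C : Calc d t0 θ ev R) (h : RL L R x F) (h' : RL L R y G) :
    RL L R (x + y) (fun u => F u + G u) := by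
  obtain ⟨f, h1, hf⟩ := h
  obtain ⟨g, h2, hg⟩ := h'
  exact ⟨f + g, by rw [map_add, h1, h2], C.add hf hg⟩

theorem RL.sub (C : Calc d t0 θ ev R) (h : RL L R x F) (h' : RL L R y G) :
    RL L R (x - y) (fun u => F u - G u) := by
  obtain ⟨f, h1, hf⟩ := h
  obtain ⟨g, h2, hg⟩ := h'
  exact ⟨f - g, by rw [map_sub, h1, h2], C.sub hf hg⟩

theorem RL.mul (C : Calc d t0 θ ev R) (h : RL L R x F) (h' : RL L R y G) :
    RL L R (x * y) (fun u => F u * G u) := by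
  obtain ⟨f, h1, hf⟩ := h
  obtain ⟨g, h2, hg⟩ := h'
  exact ⟨f * g, by rw [map_mul, h1, h2], C.mul hf hg⟩

theorem RL.inv (C : Calc d t0 θ ev R) (h : RL L R x F) (h0 : F (t0, 0) ≠ 0) :
    RL L R x⁻¹ (fun u => (F u)⁻¹) := by
  obtain ⟨f, h1, hf⟩ := h
  refine ⟨f⁻¹, ?_, C.inv hf h0⟩
  have hc : constantCoeff f ≠ 0 := by
    intro hc
    exact h0 ((C.cc_iff hf).1 hc).self_of_nhds
  have h2 : f * f⁻¹ = 1 := PowerSeries.mul_inv_cancel f hc
  have h3 : algebraMap κ⟦X⟧ L f * algebraMap κ⟦X⟧ L f⁻¹ = 1 := by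
    rw [← map_mul, h2, map_one]
  rw [h1] at h3
  exact eq_inv_of_mul_eq_one_right h3

theorem RL.div (C : Calc d t0 θ ev R) (h : RL L R x F) (h' : RL L R y G) (h0 : G (t0, 0) ≠ 0) :
    RL L R (x / y) (fun u => F u / G u) := by
  have h1 := h.mul C (h'.inv C h0)
  rw [← div_eq_mul_inv] at h1
  refine h1.congr C (Eventually.of_forall fun u => ?_)
  show F u * (G u)⁻¹ = F u / G u
  rw [div_eq_mul_inv]

theorem RL.dt (C : Calc d t0 θ ev R) (hD : Ders κ d L Dt Ds) (h : RL L R x F) :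
    RL L R (Dt x) (dt F) := by
  obtain ⟨f, h1, hf⟩ := h
  exact ⟨ct d f, by rw [← h1, hD.t_alg], C.dt hf⟩

theorem RL.ds (C : Calc d t0 θ ev R) (hD : Ders κ d L Dt Ds) (h : RL L R x F) :
    RL L R (Ds x) (ds F) := by
  obtain ⟨f, h1, hf⟩ := h
  exact ⟨derivative κ f, by rw [← h1, hD.s_alg], C.ds hf⟩

theorem RL.eq_iff (C : Calc d t0 θ ev R) (h : RL L R x F) (h' : RL L R y G) :
    x = y ↔ F =ᶠ[𝓝 (t0, (0 : ℂ))] G := by
  obtain ⟨f, h1, hf⟩ := h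
  obtain ⟨g, h2, hg⟩ := h'
  rw [← C.eq_iff hf hg, ← h1, ← h2]
  exact (IsFractionRing.injective κ⟦X⟧ L).eq_iff

theorem RL.two (C : Calc d t0 θ ev R) : RL L R (2 : L) (fun _ => 2) := by
  refine ⟨((2 : ℕ) : κ⟦X⟧), by rw [map_natCast]; norm_num, ?_⟩
  refine C.congr (C.natCast 2) (Eventually.of_forall fun u => ?_)
  norm_num

theorem RL.zero (C : Calc d t0 θ ev R) : RL L R (0 : L) (fun _ => 0) :=
  ⟨0, map_zero _, C.zero⟩

end

/-- the jets are realised -/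
theorem RL.jet (C : Calc d t0 θ ev R) (hD : Ders κ d L Dt Ds) {i E P Q : L}
    {E' P' Q' : ℂ × ℂ → ℂ} (hi : RL L R i (fun _ => I)) (hE : RL L R E E') (hP : RL L R P P')
    (hQ : RL L R Q Q') (h0 : E' (t0, 0) ≠ 0) (h1 : Star.dt E' (t0, 0) ≠ 0) (k : ℕ) :
    RL L R (jetL Dt i E P Q k) (Star.jet E' P' Q' k) := by
  have key : RL L R (jetL Dt i E P Q k) (Star.jet E' P' Q' k) ∧
      RL L R (jetL Dt i E P Q (k + 1)) (Star.jet E' P' Q' (k + 1)) := by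
    induction k with
    | zero =>
      constructor
      · exact ((hP.div C hE h0).add C (hQ.mul C hE)).div C (RL.two C) two_ne_zero
      · exact (hi.mul C ((hQ.mul C hE).sub C (hP.div C hE h0))).div C (RL.two C) two_ne_zero
    | succ k ih =>
      refine ⟨ih.2, ?_⟩
      exact ((ih.2.dt C hD).mul C (hi.mul C hE)).div C (hE.dt C hD) h1
  exact key.1

/-- polynomials are realised -/
theorem RL.eval (C : Calc d t0 θ ev R) {cst : ℂ →+* L} (hc : ∀ z, RL L R (cst z) (fun _ => z))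
    {m : ℕ} {x : Fin m → L} {F : Fin m → ℂ × ℂ → ℂ} (h : ∀ i, RL L R (x i) (F i))
    (P : MvPolynomial (Fin m) ℂ) :
    RL L R (MvPolynomial.eval₂ cst x P) (fun u => MvPolynomial.eval (fun i => F i u) P) := by
  induction P using MvPolynomial.induction_on with
  | C a => simpa using hc a
  | add p q hp hq =>
    rw [MvPolynomial.eval₂_add]
    refine (hp.add C hq).congr C (Eventually.of_forall fun u => ?_)
    exact (map_add (MvPolynomial.eval fun i => F i u) p q).symm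
  | mul_X p i hp =>
    rw [MvPolynomial.eval₂_mul, MvPolynomial.eval₂_X]
    refine (hp.mul C (h i)).congr C (Eventually.of_forall fun u => ?_)
    have h2 := map_mul (MvPolynomial.eval fun i => F i u) p (MvPolynomial.X i)
    rw [MvPolynomial.eval_X] at h2
    exact h2.symm

/-- the relation `P (E, jets) = 0` in the field of fractions, read off from functions -/
theorem rel_iff (C : Calc d t0 θ ev R) (hD : Ders κ d L Dt Ds) {cst : ℂ →+* L}
    (hc : ∀ z, RL L R (cst z) (fun _ => z)) {E P Q : L}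
    {E' P' Q' : ℂ × ℂ → ℂ} (hE : RL L R E E') (hP : RL L R P P')
    (hQ : RL L R Q Q') (h0 : E' (t0, 0) ≠ 0) (h1 : Star.dt E' (t0, 0) ≠ 0) (m : ℕ)
    (Pm : MvPolynomial (Fin (m + 2)) ℂ) :
    MvPolynomial.eval₂ cst (Fin.cons E fun i : Fin (m + 1) => jetL Dt (cst I) E P Q i) Pm = 0 ↔
      ∀ᶠ u in 𝓝 (t0, (0 : ℂ)), MvPolynomial.eval (Fin.cons (E' u)
        fun i : Fin (m + 1) => Star.jet E' P' Q' i u) Pm = 0 := by
  set x : Fin (m + 2) → L := Fin.cons E fun i : Fin (m + 1) => jetL Dt (cst I) E P Q i with hx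
  set F : Fin (m + 2) → ℂ × ℂ → ℂ := Fin.cons E' fun i : Fin (m + 1) => Star.jet E' P' Q' i
    with hF
  have hxF : ∀ i, RL L R (x i) (F i) := by
    intro i
    refine Fin.cases ?_ (fun j => ?_) i
    · simpa [hx, hF] using hE
    · simpa [hx, hF] using RL.jet C hD (hc I) hE hP hQ h0 h1 j
  have h2 := (RL.eval C hc hxF Pm).eq_iff C (RL.zero C)
  rw [h2]
  have h3 : ∀ u, (fun i => F i u) = (Fin.cons (E' u)
      (fun i : Fin (m + 1) => Star.jet E' P' Q' i u) : Fin (m + 2) → ℂ) := by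
    intro u
    funext i
    refine Fin.cases ?_ (fun j => ?_) i
    · simp [hF]
    · simp [hF]
  constructor
  · intro h
    filter_upwards [h] with u hu
    rw [h3 u] at hu
    exact hu
  · intro h
    filter_upwards [h] with u hu
    rw [h3 u]
    exact hu

/-- **Transfer of the relations** through a second embedding `σ` of the field `F` of the natural
data: `j` the natural embedding (`w = s`), `σ` the second one (`w = s ^ N`). -/
theorem rel_transfer {A₂ : Type*} [CommRing A₂] {θ₂ : A₂ →+* κ⟦X⟧} {ev₂ : A₂ → ℂ × ℂ → ℂ}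
    {R₂ : κ⟦X⟧ → (ℂ × ℂ → ℂ) → Prop} {t2 : ℂ}
    (C : Calc d t0 θ ev R) (C₂ : Calc d t2 θ₂ ev₂ R₂) (hD : Ders κ d L Dt Ds) {cst : ℂ →+* L}
    (hc : ∀ z, RL L R (cst z) (fun _ => z)) (hc₂ : ∀ z, RL L R₂ (cst z) (fun _ => z))
    {F : Type*} [Field F] (j σ : F →+* L) {DF : F → F} (hj : ∀ x, j (DF x) = Dt (j x))
    (hσ : ∀ x, σ (DF x) = Dt (σ x)) (cF : ℂ →+* F) (hjc : ∀ z, j (cF z) = cst z)
    (hσc : ∀ z, σ (cF z) = cst z) {E P Q : F}
    {E₁ P₁ Q₁ E₂ P₂ Q₂ : ℂ × ℂ → ℂ} (hE : RL L R (j E) E₁) (hP : RL L R (j P) P₁)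
    (hQ : RL L R (j Q) Q₁) (h0 : E₁ (t0, 0) ≠ 0) (h1 : Star.dt E₁ (t0, 0) ≠ 0)
    (hE₂ : RL L R₂ (σ E) E₂) (hP₂ : RL L R₂ (σ P) P₂)
    (hQ₂ : RL L R₂ (σ Q) Q₂) (h0₂ : E₂ (t2, 0) ≠ 0) (h1₂ : Star.dt E₂ (t2, 0) ≠ 0) (m : ℕ)
    (Pm : MvPolynomial (Fin (m + 2)) ℂ)
    (h : ∀ᶠ u in 𝓝 (t0, (0 : ℂ)), MvPolynomial.eval (Fin.cons (E₁ u)
        fun i : Fin (m + 1) => Star.jet E₁ P₁ Q₁ i u) Pm = 0) :
    ∀ᶠ u in 𝓝 (t2, (0 : ℂ)), MvPolynomial.eval (Fin.cons (E₂ u)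
        fun i : Fin (m + 1) => Star.jet E₂ P₂ Q₂ i u) Pm = 0 := by
  rw [← rel_iff C hD hc hE hP hQ h0 h1] at h
  rw [← rel_iff C₂ hD hc₂ hE₂ hP₂ hQ₂ h0₂ h1₂]
  have hcomp : ∀ (τ : F →+* L), (∀ x, τ (DF x) = Dt (τ x)) → (∀ z, τ (cF z) = cst z) →
      τ (MvPolynomial.eval₂ cF (Fin.cons E fun i : Fin (m + 1) => jetL DF (cF I) E P Q i) Pm) =
      MvPolynomial.eval₂ cst (Fin.cons (τ E)
        fun i : Fin (m + 1) => jetL Dt (cst I) (τ E) (τ P) (τ Q) i) Pm := by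
    intro τ hτ hτc
    rw [MvPolynomial.eval₂_comp_left]
    have e1 : τ.comp cF = cst := RingHom.ext hτc
    have e2 : τ ∘ (Fin.cons E fun i : Fin (m + 1) => jetL DF (cF I) E P Q i : Fin (m + 2) → F) =
        Fin.cons (τ E) fun i : Fin (m + 1) => jetL Dt (cst I) (τ E) (τ P) (τ Q) i := by
      funext i
      refine Fin.cases ?_ (fun l => ?_) i
      · simp
      · simp only [Function.comp, Fin.cons_succ]
        rw [map_jetL τ hτ, hτc]
    rw [e1, e2]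
  have h2 := hcomp j hj hjc
  rw [h] at h2
  have h3 := (map_eq_zero j).mp h2
  have h4 := hcomp σ hσ hσc
  rw [h3, map_zero] at h4
  exact h4.symm

/-- the natural relation -/
theorem nat_rel {H ψ : ℂ × ℂ → ℂ} {h : ℂ → ℂ} {E P Q : ℂ × ℂ → ℂ} {x₀ : ℂ × ℂ} {κ₀ : ℝ}
    (hψ : AnalyticAt ℂ ψ x₀)
    (hh : AnalyticAt ℂ h (ψ x₀)) (hψt : Star.dt ψ x₀ ≠ 0) (hstr : ∀ᶠ u in 𝓝 x₀, ψ u ∈ H202.Str κ₀)
    (hE : ∀ᶠ u in 𝓝 x₀, Complex.exp (I * ψ u) = E u)
    (hPQ : ∀ᶠ u in 𝓝 x₀, P u = (h (ψ u) + I * deriv h (ψ u)) * Complex.exp (I * ψ u) ∧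
        Q u = (h (ψ u) - I * deriv h (ψ u)) * Complex.exp (-(I * ψ u))) (m : ℕ)
    (Pm : MvPolynomial (Fin (m + 2)) ℂ) (hrel : ∀ z ∈ H202.Str κ₀, H456.Fct.Rel m Pm h z) :
    ∀ᶠ u in 𝓝 x₀, MvPolynomial.eval (Fin.cons (E u)
        fun i : Fin (m + 1) => Star.jet E P Q i u) Pm = 0 := by
  have hj1 : ∀ᶠ u in 𝓝 x₀, ∀ i : Fin (m + 1),
      Star.jet E P Q i u = iteratedDeriv i h (ψ u) := by
    rw [Filter.eventually_all]
    intro i
    exact jet_eq hψ hh hψt hE hPQ i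
  filter_upwards [hj1, hstr, hE] with u a1 a2 a3
  have a4 := hrel _ a2
  unfold H456.Fct.Rel at a4
  rw [← a4, ← a3]
  congr 1
  congr 1
  congr 1
  funext i
  exact a1 i

end Vale.Agent.P097.H123.Star
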