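import Vale.Agent.P097.H650.Patch

/-! # P097 / FCT / S11: from the `(t,s)`-chain to the star word (helper123)

`dep`: functional dependence of two analytic germs in two variables. -/

set_option linter.all false

open Complex Filter Topology Set Metric

namespace Vale.Agent.P097.H123.Star

/-- derivative in the first variable -/
noncomputable def dt (f : ℂ × ℂ → ℂ) (x : ℂ × ℂ) : ℂ := fderiv ℂ f x (1, 0)

/-- derivative in the second variable -/
noncomputable def ds (f : ℂ × ℂ → ℂ) (x : ℂ × ℂ) : ℂ := fderiv ℂ f x (0, 1)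

theorem fderiv_eq {f : ℂ × ℂ → ℂ} {x : ℂ × ℂ} (v : ℂ × ℂ) :
    fderiv ℂ f x v = dt f x * v.1 + ds f x * v.2 := by
  have h : v = v.1 • ((1 : ℂ), (0 : ℂ)) + v.2 • ((0 : ℂ), (1 : ℂ)) := by
    ext <;> simp
  conv_lhs => rw [h, map_add, map_smul, map_smul]
  unfold dt ds
  rw [smul_eq_mul, smul_eq_mul]
  ring

/-- the derivative of a function of two variables along a curve -/
theorem hasDerivAt_comp {f : ℂ × ℂ → ℂ} {a b : ℂ → ℂ} {a' b' z : ℂ}
    (hf : DifferentiableAt ℂ f (a z, b z)) (ha : HasDerivAt a a' z) (hb : HasDerivAt b b' z) :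
    HasDerivAt (fun z => f (a z, b z)) (dt f (a z, b z) * a' + ds f (a z, b z) * b') z := by
  have h1 : HasDerivAt (fun z => (a z, b z)) (a', b') z := ha.prodMk hb
  have h2 := HasFDerivAt.comp_hasDerivAt z hf.hasFDerivAt h1
  rw [fderiv_eq] at h2
  exact h2

theorem hasDerivAt_fst {f : ℂ × ℂ → ℂ} {t s : ℂ} (hf : DifferentiableAt ℂ f (t, s)) :
    HasDerivAt (fun t => f (t, s)) (dt f (t, s)) t := by
  have := hasDerivAt_comp (a := fun t => t) (b := fun _ => s) hf (hasDerivAt_id t)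
    (hasDerivAt_const t s)
  simpa using this

theorem hasDerivAt_snd {f : ℂ × ℂ → ℂ} {t s : ℂ} (hf : DifferentiableAt ℂ f (t, s)) :
    HasDerivAt (fun s => f (t, s)) (ds f (t, s)) s := by
  have := hasDerivAt_comp (a := fun _ => t) (b := fun s => s) hf (hasDerivAt_const s t)
    (hasDerivAt_id s)
  simpa using this

theorem analyticAt_dt {f : ℂ × ℂ → ℂ} {x : ℂ × ℂ} (hf : AnalyticAt ℂ f x) :
    AnalyticAt ℂ (dt f) x := by
  have h := hf.fderiv
  exact ((ContinuousLinearMap.apply ℂ ℂ ((1 : ℂ), (0 : ℂ))).analyticAt _).comp h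

theorem analyticAt_ds {f : ℂ × ℂ → ℂ} {x : ℂ × ℂ} (hf : AnalyticAt ℂ f x) :
    AnalyticAt ℂ (ds f) x := by
  have h := hf.fderiv
  exact ((ContinuousLinearMap.apply ℂ ℂ ((0 : ℂ), (1 : ℂ))).analyticAt _).comp h

/-- local inverse in the first variable -/
theorem exists_T {ψ : ℂ × ℂ → ℂ} {t₀ s₀ : ℂ} (hψ : AnalyticAt ℂ ψ (t₀, s₀))
    (h1 : dt ψ (t₀, s₀) ≠ 0) :
    ∃ T : ℂ × ℂ → ℂ, AnalyticAt ℂ T (ψ (t₀, s₀), s₀) ∧ T (ψ (t₀, s₀), s₀) = t₀ ∧
      (∀ᶠ y in 𝓝 (ψ (t₀, s₀), s₀), ψ (T y, y.2) = y.1) ∧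
      ∀ᶠ x in 𝓝 (t₀, s₀), T (ψ x, x.2) = x.1 := by
  set F : (ℂ × ℂ) × ℂ → ℂ := fun v => ψ (v.2, v.1.2) - v.1.1 with hF
  have hFa : AnalyticAt ℂ F ((ψ (t₀, s₀), s₀), t₀) := by
    refine AnalyticAt.sub ?_ (analyticAt_fst.comp analyticAt_fst)
    exact hψ.comp_of_eq (AnalyticAt.prod analyticAt_snd (analyticAt_snd.comp analyticAt_fst)) rfl
  have hF0 : F ((ψ (t₀, s₀), s₀), t₀) = 0 := by simp [hF]
  have hd : deriv (fun t => F ((ψ (t₀, s₀), s₀), t)) t₀ ≠ 0 := by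
    have h2 : HasDerivAt (fun t => F ((ψ (t₀, s₀), s₀), t)) (dt ψ (t₀, s₀)) t₀ := by
      have := (hasDerivAt_fst hψ.differentiableAt).sub_const (ψ (t₀, s₀))
      exact this
    rw [h2.deriv]
    exact h1
  obtain ⟨T, hTa, hT0, hTe, hTu⟩ := H650.ift_scalar hFa hF0 hd
  refine ⟨T, hTa, hT0, ?_, ?_⟩
  · filter_upwards [hTe] with y hy
    exact sub_eq_zero.mp hy
  · have hc : Tendsto (fun x : ℂ × ℂ => ((ψ x, x.2), x.1)) (𝓝 (t₀, s₀))
        (𝓝 ((ψ (t₀, s₀), s₀), t₀)) :=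
      (hψ.continuousAt.tendsto.prodMk_nhds (continuous_snd.tendsto (t₀, s₀))).prodMk_nhds
        (continuous_fst.tendsto (t₀, s₀))
    filter_upwards [hc.eventually hTu] with x hx
    exact hx (by simp [hF])

/-- **Functional dependence.** -/
theorem dep {ψ q : ℂ × ℂ → ℂ} {t₀ s₀ : ℂ} (hψ : AnalyticAt ℂ ψ (t₀, s₀))
    (hq : AnalyticAt ℂ q (t₀, s₀)) (h1 : dt ψ (t₀, s₀) ≠ 0)
    (h : ∀ᶠ x in 𝓝 (t₀, s₀), dt q x * ds ψ x = ds q x * dt ψ x) :
    ∃ Q : ℂ → ℂ, AnalyticAt ℂ Q (ψ (t₀, s₀)) ∧ ∀ᶠ x in 𝓝 (t₀, s₀), q x = Q (ψ x) := by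
  obtain ⟨T, hTa, hT0, hTe, hTu⟩ := exists_T hψ h1
  set y₀ : ℂ × ℂ := (ψ (t₀, s₀), s₀) with hy₀
  set G : ℂ × ℂ → ℂ := fun y => q (T y, y.2) with hG
  have hGa : AnalyticAt ℂ G y₀ :=
    hq.comp_of_eq (AnalyticAt.prod hTa analyticAt_snd) (by rw [hT0])
  have hTc : Tendsto (fun y : ℂ × ℂ => (T y, y.2)) (𝓝 y₀) (𝓝 (t₀, s₀)) := by
    have := hTa.continuousAt.tendsto.prodMk_nhds (continuous_snd.tendsto y₀)
    rwa [hT0] at this
  have hne : ∀ᶠ x in 𝓝 (t₀, s₀), dt ψ x ≠ 0 :=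
    (analyticAt_dt hψ).continuousAt.eventually_ne h1
  have hev : ∀ᶠ y in 𝓝 y₀, AnalyticAt ℂ G y ∧ AnalyticAt ℂ T y ∧
      AnalyticAt ℂ ψ (T y, y.2) ∧ AnalyticAt ℂ q (T y, y.2) ∧ dt ψ (T y, y.2) ≠ 0 ∧
      dt q (T y, y.2) * ds ψ (T y, y.2) = ds q (T y, y.2) * dt ψ (T y, y.2) ∧
      ψ (T y, y.2) = y.1 := by
    filter_upwards [hGa.eventually_analyticAt, hTa.eventually_analyticAt,
      hTc.eventually hψ.eventually_analyticAt, hTc.eventually hq.eventually_analyticAt,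
      hTc.eventually hne, hTc.eventually h, hTe] with y a1 a2 a3 a4 a5 a6 a7
    exact ⟨a1, a2, a3, a4, a5, a6, a7⟩
  obtain ⟨r, hr, hb⟩ := Metric.eventually_nhds_iff_ball.1 hev
  have hmem : ∀ x s : ℂ, x ∈ ball (ψ (t₀, s₀)) r → s ∈ ball s₀ r → (x, s) ∈ ball y₀ r := by
    intro x s hx hs
    rw [hy₀, ← ball_prod_same]
    exact ⟨hx, hs⟩
  -- the derivative in `s` vanishes
  have hds : ∀ x ∈ ball (ψ (t₀, s₀)) r, ∀ s ∈ ball s₀ r,
      HasDerivAt (fun s => G (x, s)) 0 s := by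
    intro x hx s hs
    obtain ⟨a1, a2, a3, a4, a5, a6, a7⟩ := hb _ (hmem x s hx hs)
    have e1 : HasDerivAt (fun s => T (x, s)) (ds T (x, s)) s := hasDerivAt_snd a2.differentiableAt
    have e2 := hasDerivAt_comp (a := fun s => T (x, s)) (b := fun s => s)
      a3.differentiableAt e1 (hasDerivAt_id s)
    have e3 := hasDerivAt_comp (a := fun s => T (x, s)) (b := fun s => s)
      a4.differentiableAt e1 (hasDerivAt_id s)
    have e4 : (fun s => ψ (T (x, s), s)) =ᶠ[𝓝 s] fun _ => x := by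
      filter_upwards [isOpen_ball.mem_nhds hs] with s' hs'
      exact (hb _ (hmem x s' hx hs')).2.2.2.2.2.2
    have e5 : dt ψ (T (x, s), s) * ds T (x, s) + ds ψ (T (x, s), s) * 1 = 0 := by
      have := (e2.congr_of_eventuallyEq e4.symm).unique (hasDerivAt_const s x)
      exact this
    have e6 : dt q (T (x, s), s) * ds T (x, s) + ds q (T (x, s), s) * 1 = 0 := by
      have e7 : dt ψ (T (x, s), s) *
          (dt q (T (x, s), s) * ds T (x, s) + ds q (T (x, s), s) * 1) = 0 := by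
        have e8 : dt q (T (x, s), s) * ds ψ (T (x, s), s) =
          ds q (T (x, s), s) * dt ψ (T (x, s), s) := a6
        linear_combination (dt q (T (x, s), s)) * e5 - e8
      exact (mul_eq_zero.mp e7).resolve_left a5
    rw [e6] at e3
    exact e3
  have hconst : ∀ x ∈ ball (ψ (t₀, s₀)) r, ∀ s ∈ ball s₀ r, G (x, s) = G (x, s₀) := by
    intro x hx s hs
    have := IsOpen.is_const_of_deriv_eq_zero (f := fun s => G (x, s)) (s := ball s₀ r) isOpen_ball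
      (convex_ball s₀ r).isPreconnected
      (fun s hs => (hds x hx s hs).differentiableAt.differentiableWithinAt)
      (fun s hs => (hds x hx s hs).deriv) hs (mem_ball_self hr)
    exact this
  refine ⟨fun x => G (x, s₀), ?_, ?_⟩
  · exact hGa.comp_of_eq (AnalyticAt.prod analyticAt_id analyticAt_const) rfl
  · have hc : Tendsto (fun x : ℂ × ℂ => (ψ x, x.2)) (𝓝 (t₀, s₀)) (𝓝 y₀) :=
      hψ.continuousAt.tendsto.prodMk_nhds (continuous_snd.tendsto (t₀, s₀))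
    filter_upwards [hTu, hc.eventually (ball_mem_nhds y₀ hr)] with x h1 h2
    have h2' : ((ψ x, x.2) : ℂ × ℂ) ∈ ball (ψ (t₀, s₀), s₀) r := h2
    rw [← ball_prod_same] at h2'
    have h3 := hconst _ h2'.1 _ h2'.2
    rw [← h3]
    show q x = q (T (ψ x, x.2), x.2)
    rw [h1]

end Vale.Agent.P097.H123.Star
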