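import Vale.Agent.P097.H123.StarA

/-! # P097 / FCT / S11: the mirror of a vertex of rank one (helper123)

If `dp = ε dq` near `(t₀,s₀)`, `ε = -exp (2 i ψ)` and `∂_t ψ ≠ 0`, then `p, q` run on the curve with
support function `h`: `p = (h + i h')(ψ) e^{iψ}`, `q = (h - i h')(ψ) e^{-iψ}`. -/

set_option linter.all false

open Complex Filter Topology Set Metric

namespace Vale.Agent.P097.H123.Star

/-- logarithm of a non-vanishing germ, with prescribed value -/
theorem exists_log {E : Type*} [NormedAddCommGroup E] [NormedSpace ℂ E] {ε : E → ℂ} {x₀ : E}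
    (hε : AnalyticAt ℂ ε x₀) {a₀ : ℂ} (h0 : Complex.exp a₀ = ε x₀) :
    ∃ a : E → ℂ, AnalyticAt ℂ a x₀ ∧ a x₀ = a₀ ∧ ∀ᶠ x in 𝓝 x₀, Complex.exp (a x) = ε x := by
  have hne : ε x₀ ≠ 0 := by rw [← h0]; exact Complex.exp_ne_zero _
  have h1 : AnalyticAt ℂ (fun x => ε x / ε x₀) x₀ := hε.div analyticAt_const hne
  have h2 : (fun x => ε x / ε x₀) x₀ = 1 := div_self hne
  have h3 : AnalyticAt ℂ (fun x => Complex.log (ε x / ε x₀)) x₀ := by
    refine h1.clog ?_
    rw [div_self hne]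
    exact Complex.one_mem_slitPlane
  refine ⟨fun x => a₀ + Complex.log (ε x / ε x₀), analyticAt_const.add h3, ?_, ?_⟩
  · show a₀ + Complex.log (ε x₀ / ε x₀) = a₀
    rw [div_self hne, Complex.log_one, add_zero]
  · filter_upwards [hε.continuousAt.eventually_ne hne] with x hx
    rw [Complex.exp_add, Complex.exp_log (div_ne_zero hx hne), h0, mul_div_cancel₀ _ hne]

theorem dt_comp {F : ℂ → ℂ} {ψ : ℂ × ℂ → ℂ} {x : ℂ × ℂ} (hF : DifferentiableAt ℂ F (ψ x))
    (hψ : DifferentiableAt ℂ ψ x) : dt (fun x => F (ψ x)) x = deriv F (ψ x) * dt ψ x := by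
  unfold dt
  have h : HasFDerivAt (fun x => F (ψ x)) (deriv F (ψ x) • fderiv ℂ ψ x) x :=
    hF.hasDerivAt.comp_hasFDerivAt x hψ.hasFDerivAt
  rw [h.fderiv]
  rfl

theorem ds_comp {F : ℂ → ℂ} {ψ : ℂ × ℂ → ℂ} {x : ℂ × ℂ} (hF : DifferentiableAt ℂ F (ψ x))
    (hψ : DifferentiableAt ℂ ψ x) : ds (fun x => F (ψ x)) x = deriv F (ψ x) * ds ψ x := by
  unfold ds
  have h : HasFDerivAt (fun x => F (ψ x)) (deriv F (ψ x) • fderiv ℂ ψ x) x :=
    hF.hasDerivAt.comp_hasFDerivAt x hψ.hasFDerivAt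
  rw [h.fderiv]
  rfl

theorem dt_congr {f g : ℂ × ℂ → ℂ} {x : ℂ × ℂ} (h : f =ᶠ[𝓝 x] g) : dt f x = dt g x := by
  unfold dt
  rw [h.fderiv_eq]

theorem ds_congr {f g : ℂ × ℂ → ℂ} {x : ℂ × ℂ} (h : f =ᶠ[𝓝 x] g) : ds f x = ds g x := by
  unfold ds
  rw [h.fderiv_eq]

/-- mixed derivatives commute -/
theorem dt_ds {f : ℂ × ℂ → ℂ} {x : ℂ × ℂ} (hf : AnalyticAt ℂ f x) :
    dt (ds f) x = ds (dt f) x := by
  have h1 : ContDiffAt ℂ 2 f x := hf.contDiffAt
  have hsym := h1.isSymmSndFDerivAt (n := 2) (by simp)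
  have h2 : DifferentiableAt ℂ (fderiv ℂ f) x := hf.fderiv.differentiableAt
  have e1 : dt (ds f) x = fderiv ℂ (fderiv ℂ f) x (1, 0) (0, 1) := by
    unfold dt ds
    have := (h2.hasFDerivAt.clm_apply (hasFDerivAt_const ((0 : ℂ), (1 : ℂ)) x)).fderiv
    rw [this]
    simp
  have e2 : ds (dt f) x = fderiv ℂ (fderiv ℂ f) x (0, 1) (1, 0) := by
    unfold dt ds
    have := (h2.hasFDerivAt.clm_apply (hasFDerivAt_const ((1 : ℂ), (0 : ℂ)) x)).fderiv
    rw [this]
    simp
  rw [e1, e2]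
  exact hsym _ _

theorem dt_mul {f g : ℂ × ℂ → ℂ} {x : ℂ × ℂ} (hf : DifferentiableAt ℂ f x)
    (hg : DifferentiableAt ℂ g x) :
    dt (fun x => f x * g x) x = f x * dt g x + dt f x * g x := by
  unfold dt
  have := (hf.hasFDerivAt.mul hg.hasFDerivAt).fderiv
  have e : (fun x => f x * g x) = f * g := rfl
  rw [e, this]
  simp [mul_comm]

theorem ds_mul {f g : ℂ × ℂ → ℂ} {x : ℂ × ℂ} (hf : DifferentiableAt ℂ f x)
    (hg : DifferentiableAt ℂ g x) :
    ds (fun x => f x * g x) x = f x * ds g x + ds f x * g x := by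
  unfold ds
  have := (hf.hasFDerivAt.mul hg.hasFDerivAt).fderiv
  have e : (fun x => f x * g x) = f * g := rfl
  rw [e, this]
  simp [mul_comm]

/-- **The mirror.** -/
theorem mirror {p q ψ : ℂ × ℂ → ℂ} {t₀ s₀ : ℂ} (hp : AnalyticAt ℂ p (t₀, s₀))
    (hq : AnalyticAt ℂ q (t₀, s₀)) (hψ : AnalyticAt ℂ ψ (t₀, s₀)) (hψt : dt ψ (t₀, s₀) ≠ 0)
    (h1 : ∀ᶠ x in 𝓝 (t₀, s₀), dt p x = -Complex.exp (2 * I * ψ x) * dt q x)
    (h2 : ∀ᶠ x in 𝓝 (t₀, s₀), ds p x = -Complex.exp (2 * I * ψ x) * ds q x) :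
    ∃ h : ℂ → ℂ, AnalyticAt ℂ h (ψ (t₀, s₀)) ∧
      (∀ᶠ x in 𝓝 (t₀, s₀), p x = (h (ψ x) + I * deriv h (ψ x)) * Complex.exp (I * ψ x) ∧
        q x = (h (ψ x) - I * deriv h (ψ x)) * Complex.exp (-(I * ψ x))) ∧
      (dt q (t₀, s₀) ≠ 0 → h (ψ (t₀, s₀)) + deriv (deriv h) (ψ (t₀, s₀)) ≠ 0) := by
  set x₀ : ℂ × ℂ := (t₀, s₀) with hx₀
  have hEa : AnalyticAt ℂ (fun z : ℂ => -Complex.exp (2 * I * z)) (ψ x₀) := by fun_prop
  have hεa : AnalyticAt ℂ (fun x => -Complex.exp (2 * I * ψ x)) x₀ :=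
    ((analyticAt_const.mul hψ).cexp).neg
  -- `q` and `ψ` are dependent
  have hdep : ∀ᶠ x in 𝓝 x₀, dt q x * ds ψ x = ds q x * dt ψ x := by
    have k1 : dt p =ᶠ[𝓝 x₀] fun x => -Complex.exp (2 * I * ψ x) * dt q x := h1
    have k2 : ds p =ᶠ[𝓝 x₀] fun x => -Complex.exp (2 * I * ψ x) * ds q x := h2
    filter_upwards [k1.eventually_nhds, k2.eventually_nhds, hp.eventually_analyticAt,
      hq.eventually_analyticAt, hψ.eventually_analyticAt] with x a1 a2 a3 a4 a5
    have b1 : DifferentiableAt ℂ (fun x => -Complex.exp (2 * I * ψ x)) x :=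
      (((analyticAt_const.mul a5).cexp).neg).differentiableAt
    have c1 : ds (dt p) x = ds (fun x => -Complex.exp (2 * I * ψ x) * dt q x) x := ds_congr a1
    have c2 : dt (ds p) x = dt (fun x => -Complex.exp (2 * I * ψ x) * ds q x) x := dt_congr a2
    rw [ds_mul b1 (analyticAt_dt a4).differentiableAt] at c1
    rw [dt_mul b1 (analyticAt_ds a4).differentiableAt] at c2
    have c3 := dt_ds a3
    have c4 := dt_ds a4
    have hd : ∀ z : ℂ, HasDerivAt (fun z : ℂ => -Complex.exp (2 * I * z))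
        (-(Complex.exp (2 * I * z) * (2 * I))) z := by
      intro z
      have e1 : HasDerivAt (fun z : ℂ => 2 * I * z) (2 * I) z := by
        simpa using (hasDerivAt_id z).const_mul (2 * I)
      exact (e1.cexp).neg
    have c5 : dt (fun x => -Complex.exp (2 * I * ψ x)) x =
        -(Complex.exp (2 * I * ψ x) * (2 * I)) * dt ψ x := by
      rw [dt_comp (F := fun z : ℂ => -Complex.exp (2 * I * z)) (hd _).differentiableAt
        a5.differentiableAt, (hd _).deriv]
    have c6 : ds (fun x => -Complex.exp (2 * I * ψ x)) x =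
        -(Complex.exp (2 * I * ψ x) * (2 * I)) * ds ψ x := by
      rw [ds_comp (F := fun z : ℂ => -Complex.exp (2 * I * z)) (hd _).differentiableAt
        a5.differentiableAt, (hd _).deriv]
    rw [c5] at c2
    rw [c6] at c1
    have c7 : Complex.exp (2 * I * ψ x) * (2 * I) * (dt q x * ds ψ x - ds q x * dt ψ x) = 0 := by
      linear_combination c1 - c2 + c3 + Complex.exp (2 * I * ψ x) * c4
    have c8 : Complex.exp (2 * I * ψ x) * (2 * I) ≠ 0 :=
      mul_ne_zero (Complex.exp_ne_zero _) (mul_ne_zero two_ne_zero I_ne_zero)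
    exact sub_eq_zero.mp ((mul_eq_zero.mp c7).resolve_left c8)
  have hdepp : ∀ᶠ x in 𝓝 x₀, dt p x * ds ψ x = ds p x * dt ψ x := by
    filter_upwards [hdep, h1, h2] with x a1 a2 a3
    rw [a2, a3]
    linear_combination (-Complex.exp (2 * I * ψ x)) * a1
  obtain ⟨Q, hQa, hQ⟩ := dep hψ hq hψt hdep
  obtain ⟨P, hPa, hP⟩ := dep hψ hp hψt hdepp
  -- the relation between the derivatives, first along `x`
  have hPQ : ∀ᶠ x in 𝓝 x₀, deriv P (ψ x) = -Complex.exp (2 * I * ψ x) * deriv Q (ψ x) := by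
    have k1 : p =ᶠ[𝓝 x₀] fun x => P (ψ x) := hP
    have k2 : q =ᶠ[𝓝 x₀] fun x => Q (ψ x) := hQ
    filter_upwards [k1.eventually_nhds, k2.eventually_nhds, hψ.eventually_analyticAt, h1,
      hψ.continuousAt.tendsto.eventually hPa.eventually_analyticAt,
      hψ.continuousAt.tendsto.eventually hQa.eventually_analyticAt,
      (analyticAt_dt hψ).continuousAt.eventually_ne hψt] with x a1 a2 a3 a4 a5 a6 a7
    have c1 : dt p x = dt (fun x => P (ψ x)) x := dt_congr a1
    have c2 : dt q x = dt (fun x => Q (ψ x)) x := dt_congr a2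
    rw [dt_comp a5.differentiableAt a3.differentiableAt] at c1
    rw [dt_comp a6.differentiableAt a3.differentiableAt] at c2
    rw [c1, c2] at a4
    have : dt ψ x * (deriv P (ψ x) - -Complex.exp (2 * I * ψ x) * deriv Q (ψ x)) = 0 := by
      linear_combination a4
    exact sub_eq_zero.mp ((mul_eq_zero.mp this).resolve_left a7)
  -- then on a neighbourhood of `ψ x₀`
  have hPQ' : ∀ᶠ z in 𝓝 (ψ x₀), deriv P z = -Complex.exp (2 * I * z) * deriv Q z := by
    obtain ⟨T, hTa, hT0, hTe, hTu⟩ := exists_T hψ hψt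
    have hc : Tendsto (fun z : ℂ => (T (z, s₀), s₀)) (𝓝 (ψ x₀)) (𝓝 x₀) := by
      have e1 : Tendsto (fun z : ℂ => ((z, s₀) : ℂ × ℂ)) (𝓝 (ψ x₀)) (𝓝 (ψ x₀, s₀)) :=
        tendsto_id.prodMk_nhds tendsto_const_nhds
      have e2 := hTa.continuousAt.tendsto.comp e1
      rw [hT0] at e2
      exact e2.prodMk_nhds tendsto_const_nhds
    have hc2 : Tendsto (fun z : ℂ => ((z, s₀) : ℂ × ℂ)) (𝓝 (ψ x₀)) (𝓝 (ψ x₀, s₀)) :=
      tendsto_id.prodMk_nhds tendsto_const_nhds
    filter_upwards [hc.eventually hPQ, hc2.eventually hTe] with z b1 b2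
    have b3 : ψ (T (z, s₀), s₀) = z := b2
    rw [b3] at b1
    exact b1
  -- the support function
  set h : ℂ → ℂ := fun z => (P z * Complex.exp (-(I * z)) + Q z * Complex.exp (I * z)) / 2 with hh
  have hha : AnalyticAt ℂ h (ψ x₀) := by
    have e1 : AnalyticAt ℂ (fun z : ℂ => Complex.exp (-(I * z))) (ψ x₀) := by fun_prop
    have e2 : AnalyticAt ℂ (fun z : ℂ => Complex.exp (I * z)) (ψ x₀) := by fun_prop
    exact ((hPa.mul e1).add (hQa.mul e2)).div analyticAt_const two_ne_zero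
  have hd1 : ∀ z : ℂ, HasDerivAt (fun z : ℂ => Complex.exp (-(I * z)))
      (Complex.exp (-(I * z)) * (-I)) z := by
    intro z
    have e0 : HasDerivAt (fun z : ℂ => I * z) (I * 1) z := (hasDerivAt_id z).const_mul I
    rw [mul_one] at e0
    have e1 : HasDerivAt (fun z : ℂ => -(I * z)) (-I) z := e0.neg
    exact e1.cexp
  have hd2 : ∀ z : ℂ, HasDerivAt (fun z : ℂ => Complex.exp (I * z))
      (Complex.exp (I * z) * I) z := by
    intro z
    have e1 : HasDerivAt (fun z : ℂ => I * z) I z := by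
      simpa using (hasDerivAt_id z).const_mul I
    exact e1.cexp
  have hexp1 : ∀ z : ℂ, Complex.exp (I * z) * Complex.exp (-(I * z)) = 1 := by
    intro z
    rw [← Complex.exp_add, add_neg_cancel, Complex.exp_zero]
  have hexp2 : ∀ z : ℂ, Complex.exp (2 * I * z) = Complex.exp (I * z) * Complex.exp (I * z) := by
    intro z
    rw [← Complex.exp_add]
    congr 1
    ring
  have hder : ∀ᶠ z in 𝓝 (ψ x₀), deriv h z =
      (-I * (P z * Complex.exp (-(I * z))) + I * (Q z * Complex.exp (I * z))) / 2 := by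
    filter_upwards [hPQ', hPa.eventually_analyticAt, hQa.eventually_analyticAt] with z a1 a2 a3
    have e1 : HasDerivAt h ((deriv P z * Complex.exp (-(I * z)) + P z * (Complex.exp (-(I * z)) * (-I))
        + (deriv Q z * Complex.exp (I * z) + Q z * (Complex.exp (I * z) * I))) / 2) z :=
      ((a2.differentiableAt.hasDerivAt.mul (hd1 z)).add
        (a3.differentiableAt.hasDerivAt.mul (hd2 z))).div_const 2
    rw [e1.deriv, a1, hexp2]
    linear_combination (-(Complex.exp (I * z) * deriv Q z) / 2) * hexp1 z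
  have hmir : ∀ᶠ z in 𝓝 (ψ x₀), P z = (h z + I * deriv h z) * Complex.exp (I * z) ∧
      Q z = (h z - I * deriv h z) * Complex.exp (-(I * z)) := by
    filter_upwards [hder] with z a1
    rw [a1]
    constructor
    · have : (h z + I * ((-I * (P z * Complex.exp (-(I * z))) +
          I * (Q z * Complex.exp (I * z))) / 2)) = P z * Complex.exp (-(I * z)) := by
        simp only [hh]
        linear_combination ((-(P z * Complex.exp (-(I * z))) + Q z * Complex.exp (I * z)) / 2) *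
          I_mul_I
      rw [this]
      linear_combination (-P z) * hexp1 z
    · have : (h z - I * ((-I * (P z * Complex.exp (-(I * z))) +
          I * (Q z * Complex.exp (I * z))) / 2)) = Q z * Complex.exp (I * z) := by
        simp only [hh]
        linear_combination ((P z * Complex.exp (-(I * z)) - Q z * Complex.exp (I * z)) / 2) *
          I_mul_I
      rw [this]
      linear_combination (-Q z) * hexp1 z
  refine ⟨h, hha, ?_, ?_⟩
  · filter_upwards [hP, hQ, hψ.continuousAt.tendsto.eventually hmir] with x a1 a2 a3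
    rw [a1, a2]
    exact a3
  · intro hqt hρ
    -- `deriv Q = -i ρ e^{-iz}`
    have e1 : deriv (deriv h) (ψ x₀) = -h (ψ x₀) + deriv Q (ψ x₀) * (I * Complex.exp (I * ψ x₀)) := by
      have k1 : deriv h =ᶠ[𝓝 (ψ x₀)] fun z => (-I * (P z * Complex.exp (-(I * z))) +
          I * (Q z * Complex.exp (I * z))) / 2 := hder
      rw [k1.deriv_eq]
      have k2 : HasDerivAt (fun z => (-I * (P z * Complex.exp (-(I * z))) +
          I * (Q z * Complex.exp (I * z))) / 2)
          ((-I * (deriv P (ψ x₀) * Complex.exp (-(I * ψ x₀)) +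
            P (ψ x₀) * (Complex.exp (-(I * ψ x₀)) * (-I))) +
          I * (deriv Q (ψ x₀) * Complex.exp (I * ψ x₀) +
            Q (ψ x₀) * (Complex.exp (I * ψ x₀) * I))) / 2) (ψ x₀) :=
        (((hPa.differentiableAt.hasDerivAt.mul (hd1 _)).const_mul (-I)).add
          ((hQa.differentiableAt.hasDerivAt.mul (hd2 _)).const_mul I)).div_const 2
      rw [k2.deriv, hPQ'.self_of_nhds, hexp2]
      simp only [hh]
      linear_combination (I * Complex.exp (I * ψ x₀) * deriv Q (ψ x₀) / 2) * hexp1 (ψ x₀) +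
        ((P (ψ x₀) * Complex.exp (-(I * ψ x₀)) + Q (ψ x₀) * Complex.exp (I * ψ x₀)) / 2) *
          I_mul_I
    rw [e1] at hρ
    have e2 : deriv Q (ψ x₀) = 0 := by
      have : deriv Q (ψ x₀) * (I * Complex.exp (I * ψ x₀)) = 0 := by linear_combination hρ
      exact (mul_eq_zero.mp this).resolve_right (mul_ne_zero I_ne_zero (Complex.exp_ne_zero _))
    apply hqt
    have k2 : q =ᶠ[𝓝 x₀] fun x => Q (ψ x) := hQ
    rw [dt_congr k2, dt_comp hQa.differentiableAt hψ.differentiableAt, e2, zero_mul]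

end Vale.Agent.P097.H123.Star
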