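import Vale.Agent.P097.H123.StarB
import Vale.Agent.P097.H407.Hol
import Vale.Agent.P097.H839.OdeA

/-! # P097 / FCT / S11: division lemma, transversal letter (helper123) -/

set_option linter.all false

open Complex Filter Topology Set Metric

namespace Vale.Agent.P097.H123.Star

/-- division by the second variable -/
theorem exists_div {f : ℂ × ℂ → ℂ} {a₀ : ℂ} (hf : AnalyticAt ℂ f (a₀, 0)) :
    ∃ g : ℂ × ℂ → ℂ, AnalyticAt ℂ g (a₀, 0) ∧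
      (∀ᶠ y in 𝓝 (a₀, (0 : ℂ)), f y = f (y.1, 0) + y.2 * g y) ∧
      ∀ a, g (a, 0) = ds f (a, 0) := by
  obtain ⟨r, hr, hb⟩ := Metric.eventually_nhds_iff_ball.1 hf.eventually_analyticAt
  set G : (ℂ × ℂ) × ℝ → ℂ := fun v => ds f (v.1.1, (v.2 : ℂ) * v.1.2) with hG
  have hmem : ∀ y ∈ ball ((a₀, (0 : ℂ)) : ℂ × ℂ) r, ∀ θ ∈ Icc (0 : ℝ) 1,
      (y.1, (θ : ℂ) * y.2) ∈ ball ((a₀, (0 : ℂ)) : ℂ × ℂ) r := by
    intro y hy θ hθ
    rw [← ball_prod_same] at hy ⊢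
    refine ⟨hy.1, ?_⟩
    have h1 : ‖y.2‖ < r := by simpa using hy.2
    simp only [mem_ball_zero_iff, norm_mul, Complex.norm_real, Real.norm_eq_abs]
    rw [abs_of_nonneg hθ.1]
    calc θ * ‖y.2‖ ≤ 1 * ‖y.2‖ := mul_le_mul_of_nonneg_right hθ.2 (norm_nonneg _)
      _ = ‖y.2‖ := one_mul _
      _ < r := h1
  have hdsf : ∀ y ∈ ball ((a₀, (0 : ℂ)) : ℂ × ℂ) r, AnalyticAt ℂ (ds f) y := fun y hy =>
    analyticAt_ds (hb y hy)
  have hGd : DifferentiableOn ℂ (fun y : ℂ × ℂ => ∫ θ in (0 : ℝ)..1, G (y, θ))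
      (ball ((a₀, (0 : ℂ)) : ℂ × ℂ) r) := by
    refine H839.Ode.differentiableOn_intervalIntegral isOpen_ball ?_ ?_
    · intro v hv
      have h1 := (hdsf _ (hmem v.1 hv.1 v.2 hv.2)).continuousAt
      have h2 : ContinuousAt (fun v : (ℂ × ℂ) × ℝ => (v.1.1, (v.2 : ℂ) * v.1.2)) v := by fun_prop
      exact (ContinuousAt.comp (f := fun v : (ℂ × ℂ) × ℝ => (v.1.1, (v.2 : ℂ) * v.1.2))
        (g := ds f) h1 h2).continuousWithinAt
    · intro θ hθ y hy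
      have h1 := (hdsf _ (hmem y hy θ hθ)).differentiableAt
      have h2 : DifferentiableAt ℂ (fun y : ℂ × ℂ => (y.1, (θ : ℂ) * y.2)) y := by fun_prop
      exact (DifferentiableAt.comp (g := ds f) y h1 h2).differentiableWithinAt
  refine ⟨fun y => ∫ θ in (0 : ℝ)..1, G (y, θ), ?_, ?_, ?_⟩
  · exact Hol.analyticAt_of_differentiableOn isOpen_ball hGd (mem_ball_self hr)
  · filter_upwards [ball_mem_nhds ((a₀, (0 : ℂ)) : ℂ × ℂ) hr] with y hy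
    have hderiv : ∀ θ ∈ uIcc (0 : ℝ) 1, HasDerivAt (fun θ : ℝ => f (y.1, (θ : ℂ) * y.2))
        (y.2 * G (y, θ)) θ := by
      intro θ hθ
      rw [uIcc_of_le zero_le_one] at hθ
      have h1 := (hb _ (hmem y hy θ hθ)).differentiableAt
      have h2 : HasDerivAt (fun z : ℂ => f (y.1, z * y.2))
          (dt f (y.1, (θ : ℂ) * y.2) * 0 + ds f (y.1, (θ : ℂ) * y.2) * (1 * y.2)) (θ : ℂ) :=
        hasDerivAt_comp (a := fun _ => y.1) (b := fun z => z * y.2) h1 (hasDerivAt_const _ _)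
          ((hasDerivAt_id _).mul_const _)
      have h3 := h2.comp_ofReal
      refine h3.congr_deriv ?_
      simp only [hG]
      ring
    have hcont : ContinuousOn (fun θ : ℝ => y.2 * G (y, θ)) (uIcc (0 : ℝ) 1) := by
      intro θ hθ
      rw [uIcc_of_le zero_le_one] at hθ
      have h1 := (hdsf _ (hmem y hy θ hθ)).continuousAt
      have h2 : ContinuousAt (fun θ : ℝ => (y.1, (θ : ℂ) * y.2)) θ := by fun_prop
      have h3 : ContinuousAt (fun θ : ℝ => ds f (y.1, (θ : ℂ) * y.2)) θ :=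
        ContinuousAt.comp (f := fun θ : ℝ => (y.1, (θ : ℂ) * y.2)) (g := ds f) h1 h2
      exact (continuousAt_const.mul h3).continuousWithinAt
    have h4 := intervalIntegral.integral_eq_sub_of_hasDerivAt hderiv hcont.intervalIntegrable
    rw [intervalIntegral.integral_const_mul] at h4
    have h5 : y = (y.1, y.2) := rfl
    simp only [Complex.ofReal_one, one_mul, Complex.ofReal_zero, zero_mul] at h4
    show f y = f (y.1, 0) + y.2 * ∫ θ in (0 : ℝ)..1, G (y, θ)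
    rw [h4]
    show f y = f (y.1, 0) + (f (y.1, y.2) - f (y.1, 0))
    ring
  · intro a
    simp [hG]

/-- the substitution `w = s ^ N` -/
def pw (N : ℕ) (x : ℂ × ℂ) : ℂ × ℂ := (x.1, x.2 ^ N)

theorem analyticAt_pw (N : ℕ) (x : ℂ × ℂ) : AnalyticAt ℂ (pw N) x :=
  AnalyticAt.prod analyticAt_fst (analyticAt_snd.pow N)

theorem pw_zero {N : ℕ} (hN : 0 < N) (t : ℂ) : pw N (t, 0) = (t, 0) := by
  unfold pw
  rw [zero_pow hN.ne']

theorem tendsto_pw {N : ℕ} (hN : 0 < N) (t : ℂ) :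
    Tendsto (pw N) (𝓝 (t, (0 : ℂ))) (𝓝 (t, (0 : ℂ))) := by
  have := (analyticAt_pw N (t, (0 : ℂ))).continuousAt.tendsto
  rwa [pw_zero hN] at this

/-- the support number, in the direction with normal angle `A`, of the point with normal angle `ψ`
of the mirror with support function `h` -/
noncomputable def sup (h : ℂ → ℂ) (A ψ : ℂ) : ℂ :=
  h ψ * Complex.cos (ψ - A) - deriv h ψ * Complex.sin (ψ - A)

theorem analyticAt_sup {E : Type*} [NormedAddCommGroup E] [NormedSpace ℂ E] {h : ℂ → ℂ}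
    {A ψ : E → ℂ} {x : E} (hh : AnalyticAt ℂ h (ψ x)) (hA : AnalyticAt ℂ A x)
    (hψ : AnalyticAt ℂ ψ x) : AnalyticAt ℂ (fun x => sup h (A x) (ψ x)) x := by
  unfold sup
  have e1 : AnalyticAt ℂ (fun x => Complex.cos (ψ x - A x)) x :=
    (Complex.differentiable_cos.analyticAt _).comp_of_eq (hψ.sub hA) rfl
  have e2 : AnalyticAt ℂ (fun x => Complex.sin (ψ x - A x)) x :=
    (Complex.differentiable_sin.analyticAt _).comp_of_eq (hψ.sub hA) rfl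
  exact ((hh.comp_of_eq hψ rfl).mul e1).sub ((hh.deriv.comp_of_eq hψ rfl).mul e2)

theorem hasDerivAt_sup {h : ℂ → ℂ} {A ψ : ℂ} (hh : AnalyticAt ℂ h ψ) :
    HasDerivAt (fun ψ => sup h A ψ) (-((h ψ + deriv (deriv h) ψ) * Complex.sin (ψ - A))) ψ := by
  unfold sup
  have e0 : HasDerivAt (fun ψ => ψ - A) 1 ψ := (hasDerivAt_id ψ).sub_const A
  have e1 : HasDerivAt (fun ψ => Complex.cos (ψ - A)) (-Complex.sin (ψ - A) * 1) ψ := e0.ccos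
  have e2 : HasDerivAt (fun ψ => Complex.sin (ψ - A)) (Complex.cos (ψ - A) * 1) ψ := e0.csin
  have e3 := (hh.differentiableAt.hasDerivAt.mul e1).sub
    (hh.deriv.differentiableAt.hasDerivAt.mul e2)
  refine e3.congr_deriv ?_
  ring

/-- the root `ψ = φ(A, S)` of `sup h A ψ = S` -/
theorem exists_root {h : ℂ → ℂ} {A₀ ψ₀ : ℂ} (hh : AnalyticAt ℂ h ψ₀)
    (hρ : h ψ₀ + deriv (deriv h) ψ₀ ≠ 0) (hs : Complex.sin (ψ₀ - A₀) ≠ 0) :
    ∃ φ : ℂ × ℂ → ℂ, AnalyticAt ℂ φ (A₀, sup h A₀ ψ₀) ∧ φ (A₀, sup h A₀ ψ₀) = ψ₀ ∧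
      (∀ᶠ x in 𝓝 (A₀, sup h A₀ ψ₀), sup h x.1 (φ x) = x.2) ∧
      ∀ᶠ v in 𝓝 ((A₀, sup h A₀ ψ₀), ψ₀), sup h v.1.1 v.2 = v.1.2 → φ v.1 = v.2 := by
  set F : (ℂ × ℂ) × ℂ → ℂ := fun v => sup h v.1.1 v.2 - v.1.2 with hF
  have hFa : AnalyticAt ℂ F ((A₀, sup h A₀ ψ₀), ψ₀) := by
    refine AnalyticAt.sub ?_ (analyticAt_snd.comp analyticAt_fst)
    exact analyticAt_sup (A := fun v : (ℂ × ℂ) × ℂ => v.1.1) (ψ := fun v : (ℂ × ℂ) × ℂ => v.2)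
      hh (analyticAt_fst.comp analyticAt_fst) analyticAt_snd
  have hF0 : F ((A₀, sup h A₀ ψ₀), ψ₀) = 0 := by simp [hF]
  have hd : deriv (fun ψ => F ((A₀, sup h A₀ ψ₀), ψ)) ψ₀ ≠ 0 := by
    have h2 : HasDerivAt (fun ψ => F ((A₀, sup h A₀ ψ₀), ψ))
        (-((h ψ₀ + deriv (deriv h) ψ₀) * Complex.sin (ψ₀ - A₀))) ψ₀ :=
      (hasDerivAt_sup hh).sub_const _
    rw [h2.deriv]
    exact neg_ne_zero.2 (mul_ne_zero hρ hs)
  obtain ⟨φ, h1, h2, h3, h4⟩ := H650.ift_scalar hFa hF0 hd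
  refine ⟨φ, h1, h2, ?_, ?_⟩
  · filter_upwards [h3] with x hx
    exact sub_eq_zero.mp hx
  · filter_upwards [h4] with v hv hv2
    exact hv (sub_eq_zero.mpr hv2)

/-- tangency invariant of a family of lines -/
def TI (t₀ : ℂ) (A S : ℂ × ℂ → ℂ) : Prop :=
  ∃ C : ℂ × ℂ → ℂ, AnalyticAt ℂ C (A (t₀, 0), S (t₀, 0)) ∧
    fderiv ℂ C (A (t₀, 0), S (t₀, 0)) ≠ 0 ∧
    ∃ U : ℂ × ℂ → ℂ, AnalyticAt ℂ U (t₀, 0) ∧ U (t₀, 0) ≠ 0 ∧
      ∀ᶠ y in 𝓝 (t₀, (0 : ℂ)), C (A y, S y) = y.2 ^ 2 * U y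

/-- **Transversal letter.** -/
theorem letterT {N : ℕ} (hN : 0 < N) {h : ℂ → ℂ} {A S ψ : ℂ × ℂ → ℂ} {t₀ : ℂ}
    (hA : AnalyticAt ℂ A (t₀, 0)) (hS : AnalyticAt ℂ S (t₀, 0)) (hψ : AnalyticAt ℂ ψ (t₀, 0))
    (hh : AnalyticAt ℂ h (ψ (t₀, 0)))
    (hρ : h (ψ (t₀, 0)) + deriv (deriv h) (ψ (t₀, 0)) ≠ 0)
    (hs : Complex.sin (ψ (t₀, 0) - A (t₀, 0)) ≠ 0)
    (hrel : ∀ᶠ x in 𝓝 (t₀, (0 : ℂ)), sup h (A (pw N x)) (ψ x) = S (pw N x))
    (hTI : TI t₀ A S) :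
    ∃ Ψ : ℂ × ℂ → ℂ, AnalyticAt ℂ Ψ (t₀, 0) ∧ Ψ (t₀, 0) = ψ (t₀, 0) ∧
      (∀ᶠ x in 𝓝 (t₀, (0 : ℂ)), ψ x = Ψ (pw N x)) ∧
      (∀ᶠ y in 𝓝 (t₀, (0 : ℂ)), sup h (A y) (Ψ y) = S y) ∧
      TI t₀ (fun y => 2 * Ψ y - A y) (fun y => sup h (2 * Ψ y - A y) (Ψ y)) := by
  set ψ₀ := ψ (t₀, 0) with hψ₀
  set A₀ := A (t₀, 0) with hA₀
  obtain ⟨φ, h1, h2, h3, h4⟩ := exists_root hh hρ hs
  have hS0 : sup h A₀ ψ₀ = S (t₀, 0) := by
    have := hrel.self_of_nhds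
    rwa [pw_zero hN] at this
  set S₀ := S (t₀, 0) with hS₀
  rw [hS0] at h1 h2 h3 h4
  have hAS : AnalyticAt ℂ (fun y => (A y, S y)) (t₀, 0) := AnalyticAt.prod hA hS
  have hASt : Tendsto (fun y => (A y, S y)) (𝓝 (t₀, (0 : ℂ))) (𝓝 (A₀, S₀)) :=
    hAS.continuousAt.tendsto
  have hΨa : AnalyticAt ℂ (fun y => φ (A y, S y)) (t₀, 0) := h1.comp_of_eq hAS rfl
  refine ⟨fun y => φ (A y, S y), hΨa, h2, ?_, ?_, ?_⟩
  · have hc : Tendsto (fun x => ((A (pw N x), S (pw N x)), ψ x)) (𝓝 (t₀, (0 : ℂ)))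
        (𝓝 ((A₀, S₀), ψ₀)) :=
      (hASt.comp (tendsto_pw hN t₀)).prodMk_nhds hψ.continuousAt.tendsto
    filter_upwards [hrel, hc.eventually h4] with x a1 a2
    exact (a2 a1).symm
  · filter_upwards [hASt.eventually h3] with y hy
    exact hy
  -- the invariant
  obtain ⟨C, hC1, hC2, U, hU1, hU2, hU3⟩ := hTI
  set A₁ := 2 * ψ₀ - A₀ with hA₁
  set S₁ := sup h A₁ ψ₀ with hS₁
  have hs1 : Complex.sin (ψ₀ - A₁) ≠ 0 := by
    have : ψ₀ - A₁ = -(ψ₀ - A₀) := by rw [hA₁]; ring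
    rw [this, Complex.sin_neg]
    exact neg_ne_zero.2 hs
  obtain ⟨φ', k1, k2, k3, k4⟩ := exists_root (A₀ := A₁) hh hρ hs1
  rw [← hS₁] at k1 k2 k3 k4
  -- the two maps
  set Φ : ℂ × ℂ → ℂ × ℂ := fun x => (2 * φ x - x.1, sup h (2 * φ x - x.1) (φ x)) with hΦ
  set R : ℂ × ℂ → ℂ × ℂ := fun x => (2 * φ' x - x.1, sup h (2 * φ' x - x.1) (φ' x)) with hR
  have hφh : AnalyticAt ℂ h (φ (A₀, S₀)) := by rw [h2]; exact hh
  have hφh' : AnalyticAt ℂ h (φ' (A₁, S₁)) := by rw [k2]; exact hh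
  have hΦa : AnalyticAt ℂ Φ (A₀, S₀) := by
    have e1 : AnalyticAt ℂ (fun x : ℂ × ℂ => 2 * φ x - x.1) (A₀, S₀) :=
      (analyticAt_const.mul h1).sub analyticAt_fst
    exact AnalyticAt.prod e1 (analyticAt_sup hφh e1 h1)
  have hRa : AnalyticAt ℂ R (A₁, S₁) := by
    have e1 : AnalyticAt ℂ (fun x : ℂ × ℂ => 2 * φ' x - x.1) (A₁, S₁) :=
      (analyticAt_const.mul k1).sub analyticAt_fst
    exact AnalyticAt.prod e1 (analyticAt_sup hφh' e1 k1)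
  have hΦ0 : Φ (A₀, S₀) = (A₁, S₁) := by
    simp only [hΦ, h2]
    rfl
  have hR0 : R (A₁, S₁) = (A₀, S₀) := by
    simp only [hR, k2]
    have : 2 * ψ₀ - A₁ = A₀ := by rw [hA₁]; ring
    rw [this, hS0]
  have hRΦ : ∀ᶠ x in 𝓝 (A₀, S₀), R (Φ x) = x := by
    have hc : Tendsto (fun x => (Φ x, φ x)) (𝓝 (A₀, S₀)) (𝓝 ((A₁, S₁), ψ₀)) := by
      have e1 := hΦa.continuousAt.tendsto
      rw [hΦ0] at e1
      have e2 := h1.continuousAt.tendsto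
      rw [h2] at e2
      exact e1.prodMk_nhds e2
    filter_upwards [hc.eventually k4, h3] with x a1 a2
    have a3 : φ' (Φ x) = φ x := a1 rfl
    simp only [hR]
    rw [a3]
    have a4 : 2 * φ x - (Φ x).1 = x.1 := by simp only [hΦ]; ring
    rw [a4, a2]
  refine ⟨fun x => C (R x), ?_, ?_, U, hU1, hU2, ?_⟩
  · show AnalyticAt ℂ (fun x => C (R x)) (2 * φ (A₀, S₀) - A₀,
      sup h (2 * φ (A₀, S₀) - A₀) (φ (A₀, S₀)))
    rw [h2]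
    exact hC1.comp_of_eq hRa hR0
  · show fderiv ℂ (fun x => C (R x)) (2 * φ (A₀, S₀) - A₀,
      sup h (2 * φ (A₀, S₀) - A₀) (φ (A₀, S₀))) ≠ 0
    rw [h2]
    intro h0
    apply hC2
    have e1 : C =ᶠ[𝓝 (A₀, S₀)] fun x => C (R (Φ x)) := by
      filter_upwards [hRΦ] with x hx
      rw [hx]
    have e2 : DifferentiableAt ℂ (fun x => C (R x)) (Φ (A₀, S₀)) := by
      rw [hΦ0]
      exact (hC1.comp_of_eq hRa hR0).differentiableAt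
    have e3 : fderiv ℂ (fun x => C (R (Φ x))) (A₀, S₀) =
        (fderiv ℂ (fun x => C (R x)) (Φ (A₀, S₀))).comp (fderiv ℂ Φ (A₀, S₀)) :=
      fderiv_comp (A₀, S₀) e2 hΦa.differentiableAt
    rw [e1.fderiv_eq, e3, hΦ0]
    have h0' : fderiv ℂ (fun x => C (R x)) (A₁, S₁) = 0 := h0
    rw [h0', ContinuousLinearMap.zero_comp]
  · filter_upwards [hU3, hASt.eventually hRΦ] with y a1 a2
    rw [← a1]
    exact congrArg C a2

end Vale.Agent.P097.H123.Star
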