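import Vale.Agent.P097.H123.StarC

/-! # P097 / FCT / S11: glancing letter (helper123) -/

set_option linter.all false

open Complex Filter Topology Set Metric

namespace Vale.Agent.P097.H123.Star

/-- near-diagonal expansion `sup h a (a + d) = h a + d ^ 2 * K (a, d)` -/
theorem exists_K {h : ℂ → ℂ} {ψ₀ : ℂ} (hh : AnalyticAt ℂ h ψ₀) :
    ∃ K : ℂ × ℂ → ℂ, AnalyticAt ℂ K (ψ₀, 0) ∧
      (∀ᶠ v in 𝓝 (ψ₀, (0 : ℂ)), sup h v.1 (v.1 + v.2) = h v.1 + v.2 ^ 2 * K v) ∧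
      2 * K (ψ₀, 0) = -(h ψ₀ + deriv (deriv h) ψ₀) := by
  set g : ℂ × ℂ → ℂ := fun v => sup h v.1 (v.1 + v.2) with hg
  have hga : AnalyticAt ℂ g (ψ₀, 0) := by
    have e1 : AnalyticAt ℂ (fun v : ℂ × ℂ => v.1 + v.2) (ψ₀, 0) :=
      analyticAt_fst.add analyticAt_snd
    refine analyticAt_sup (A := fun v : ℂ × ℂ => v.1) (ψ := fun v : ℂ × ℂ => v.1 + v.2) ?_
      analyticAt_fst e1
    simpa using hh
  -- derivative in `d`
  have hga' : ∀ᶠ v in 𝓝 (ψ₀, (0 : ℂ)), ds g v =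
      -((h (v.1 + v.2) + deriv (deriv h) (v.1 + v.2)) * Complex.sin v.2) := by
    have hc : Tendsto (fun v : ℂ × ℂ => v.1 + v.2) (𝓝 (ψ₀, (0 : ℂ))) (𝓝 ψ₀) := by
      have : ContinuousAt (fun v : ℂ × ℂ => v.1 + v.2) (ψ₀, (0 : ℂ)) := by fun_prop
      have h2 := this.tendsto
      simpa using h2
    filter_upwards [hc.eventually hh.eventually_analyticAt, hga.eventually_analyticAt] with v a1 a2
    have e1 : HasDerivAt (fun d => g (v.1, d)) (ds g (v.1, v.2)) v.2 :=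
      hasDerivAt_snd a2.differentiableAt
    have e2 : HasDerivAt (fun d => sup h v.1 (v.1 + d))
        (-((h (v.1 + v.2) + deriv (deriv h) (v.1 + v.2)) * Complex.sin (v.1 + v.2 - v.1)) * 1)
        v.2 :=
      HasDerivAt.comp v.2 (hasDerivAt_sup a1) ((hasDerivAt_id v.2).const_add v.1)
    have e3 := e1.unique e2
    rw [show v.1 + v.2 - v.1 = v.2 by ring, mul_one] at e3
    exact e3
  obtain ⟨k1, b1, b2, b3⟩ := exists_div hga
  have hk10 : ∀ᶠ v in 𝓝 (ψ₀, (0 : ℂ)), k1 (v.1, 0) = 0 := by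
    have hc : Tendsto (fun v : ℂ × ℂ => (v.1, (0 : ℂ))) (𝓝 (ψ₀, (0 : ℂ))) (𝓝 (ψ₀, (0 : ℂ))) := by
      have : ContinuousAt (fun v : ℂ × ℂ => (v.1, (0 : ℂ))) (ψ₀, (0 : ℂ)) := by fun_prop
      exact this.tendsto
    filter_upwards [hc.eventually hga'] with v a1
    rw [b3, a1]
    simp
  obtain ⟨K, c1, c2, c3⟩ := exists_div b1
  have hsum : ∀ᶠ v in 𝓝 (ψ₀, (0 : ℂ)), g v = h v.1 + v.2 ^ 2 * K v := by
    filter_upwards [b2, c2, hk10] with v a1 a2 a3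
    rw [a1, a2, a3]
    have : g (v.1, 0) = h v.1 := by simp [hg, sup]
    rw [this]
    ring
  refine ⟨K, c1, hsum, ?_⟩
  -- compare the derivatives at `d = 0` of `∂_d g`
  have hc : Tendsto (fun d : ℂ => ((ψ₀, d) : ℂ × ℂ)) (𝓝 0) (𝓝 (ψ₀, (0 : ℂ))) := by
    have : ContinuousAt (fun d : ℂ => ((ψ₀, d) : ℂ × ℂ)) 0 := by fun_prop
    exact this.tendsto
  have e1 : (fun d => ds g (ψ₀, d)) =ᶠ[𝓝 0] fun d =>
      -((h (ψ₀ + d) + deriv (deriv h) (ψ₀ + d)) * Complex.sin d) := hc.eventually hga'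
  have e2 : (fun d => ds g (ψ₀, d)) =ᶠ[𝓝 0] fun d => d * (2 * K (ψ₀, d) + d * ds K (ψ₀, d)) := by
    filter_upwards [hc.eventually hsum.eventually_nhds, hc.eventually c1.eventually_analyticAt,
      hc.eventually hga.eventually_analyticAt] with d a1 a2 a3
    have f1 : HasDerivAt (fun d => g (ψ₀, d)) (ds g (ψ₀, d)) d :=
      hasDerivAt_snd a3.differentiableAt
    have f2 : HasDerivAt (fun d => K (ψ₀, d)) (ds K (ψ₀, d)) d :=
      hasDerivAt_snd a2.differentiableAt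
    have f3 : HasDerivAt (fun d : ℂ => d ^ 2 * K (ψ₀, d))
        (((2 : ℕ) : ℂ) * d ^ (2 - 1) * K (ψ₀, d) + d ^ 2 * ds K (ψ₀, d)) d :=
      (hasDerivAt_pow 2 d).mul f2
    have f4 : HasDerivAt (fun d : ℂ => h ψ₀ + d ^ 2 * K (ψ₀, d))
        (((2 : ℕ) : ℂ) * d ^ (2 - 1) * K (ψ₀, d) + d ^ 2 * ds K (ψ₀, d)) d :=
      f3.const_add _
    have hcd : Tendsto (fun d : ℂ => ((ψ₀, d) : ℂ × ℂ)) (𝓝 d) (𝓝 (ψ₀, d)) := by
      have : ContinuousAt (fun d : ℂ => ((ψ₀, d) : ℂ × ℂ)) d := by fun_prop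
      exact this.tendsto
    have f5 : (fun d => g (ψ₀, d)) =ᶠ[𝓝 d] fun d => h ψ₀ + d ^ 2 * K (ψ₀, d) :=
      hcd.eventually a1
    have f6 := f1.unique (f4.congr_of_eventuallyEq f5)
    rw [f6]
    push_cast
    ring
  have hρa : AnalyticAt ℂ (fun d => h (ψ₀ + d) + deriv (deriv h) (ψ₀ + d)) 0 := by
    have s1 : AnalyticAt ℂ (fun d : ℂ => ψ₀ + d) 0 := analyticAt_const.add analyticAt_id
    have s2 : (fun d : ℂ => ψ₀ + d) 0 = ψ₀ := by simp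
    exact (hh.comp_of_eq s1 s2).add (hh.deriv.deriv.comp_of_eq s1 s2)
  have e3 : HasDerivAt (fun d => -((h (ψ₀ + d) + deriv (deriv h) (ψ₀ + d)) * Complex.sin d))
      (-(deriv (fun d => h (ψ₀ + d) + deriv (deriv h) (ψ₀ + d)) 0 * Complex.sin 0 +
        (h (ψ₀ + 0) + deriv (deriv h) (ψ₀ + 0)) * Complex.cos 0)) 0 :=
    (hρa.differentiableAt.hasDerivAt.mul (Complex.hasDerivAt_sin 0)).neg
  have hKd : DifferentiableAt ℂ (fun d => 2 * K (ψ₀, d) + d * ds K (ψ₀, d)) 0 := by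
    have s1 : AnalyticAt ℂ (fun d : ℂ => ((ψ₀, d) : ℂ × ℂ)) 0 :=
      AnalyticAt.prod analyticAt_const analyticAt_id
    have s2 := c1.comp_of_eq s1 rfl
    have s3 := (analyticAt_ds c1).comp_of_eq s1 rfl
    exact ((analyticAt_const.mul s2).add (analyticAt_id.mul s3)).differentiableAt
  have e4 : HasDerivAt (fun d => d * (2 * K (ψ₀, d) + d * ds K (ψ₀, d)))
      (1 * (2 * K (ψ₀, 0) + 0 * ds K (ψ₀, 0)) +
        0 * deriv (fun d => 2 * K (ψ₀, d) + d * ds K (ψ₀, d)) 0) 0 :=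
    (hasDerivAt_id (0 : ℂ)).mul hKd.hasDerivAt
  have e5 := (e3.congr_of_eventuallyEq e1).unique (e4.congr_of_eventuallyEq e2)
  simp only [add_zero, Complex.sin_zero, mul_zero, zero_add, Complex.cos_zero, mul_one, one_mul,
    zero_mul] at e5
  exact e5.symm

/-- analytic germs with vanishing product -/
theorem germ_mul_eq_zero {E : Type*} [NormedAddCommGroup E] [NormedSpace ℂ E] {F G : E → ℂ} {x₀ : E}
    (hF : AnalyticAt ℂ F x₀) (hG : AnalyticAt ℂ G x₀) (h : ∀ᶠ x in 𝓝 x₀, F x * G x = 0) :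
    (∀ᶠ x in 𝓝 x₀, F x = 0) ∨ ∀ᶠ x in 𝓝 x₀, G x = 0 := by
  obtain ⟨r, hr, hb⟩ := Metric.eventually_nhds_iff_ball.1
    (hF.eventually_analyticAt.and (hG.eventually_analyticAt.and h))
  rcases H650.mul_eq_zero_on (U := ball x₀ r) (convex_ball x₀ r).isPreconnected isOpen_ball
    (fun x hx => (hb x hx).1) (fun x hx => (hb x hx).2.1) (fun x hx => (hb x hx).2.2) with h1 | h1
  · left
    filter_upwards [ball_mem_nhds x₀ hr] with x hx using h1 x hx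
  · right
    filter_upwards [ball_mem_nhds x₀ hr] with x hx using h1 x hx

/-- square root of a non-vanishing germ -/
theorem exists_sqrt {E : Type*} [NormedAddCommGroup E] [NormedSpace ℂ E] {F : E → ℂ} {x₀ : E}
    (hF : AnalyticAt ℂ F x₀) (h0 : F x₀ ≠ 0) :
    ∃ u : E → ℂ, AnalyticAt ℂ u x₀ ∧ u x₀ ≠ 0 ∧ ∀ᶠ x in 𝓝 x₀, u x ^ 2 = F x := by
  obtain ⟨a, ha, ha0, hae⟩ := exists_log hF (a₀ := Complex.log (F x₀)) (Complex.exp_log h0)
  refine ⟨fun x => Complex.exp (a x / 2), (ha.div analyticAt_const two_ne_zero).cexp,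
    Complex.exp_ne_zero _, ?_⟩
  filter_upwards [hae] with x hx
  rw [← hx, ← Complex.exp_nat_mul]
  congr 1
  push_cast
  ring

/-- the restriction to `w = 0` of a function of `(t, w)` -/
theorem tendsto_t (t₀ : ℂ) : Tendsto (fun t : ℂ => ((t, 0) : ℂ × ℂ)) (𝓝 t₀) (𝓝 (t₀, (0 : ℂ))) := by
  have : ContinuousAt (fun t : ℂ => ((t, 0) : ℂ × ℂ)) t₀ := by fun_prop
  exact this.tendsto

/-- the tangency invariant of a family which is tangent to the mirror `h` at `w = 0` -/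
theorem TI_tangent {h : ℂ → ℂ} {A S : ℂ × ℂ → ℂ} {t₀ : ℂ}
    (hA : AnalyticAt ℂ A (t₀, 0)) (hS : AnalyticAt ℂ S (t₀, 0))
    (hh : AnalyticAt ℂ h (A (t₀, 0))) (hAt : dt A (t₀, 0) ≠ 0)
    (h0 : ∀ᶠ t in 𝓝 t₀, S (t, 0) = h (A (t, 0))) (hTI : TI t₀ A S) :
    ∃ U : ℂ × ℂ → ℂ, AnalyticAt ℂ U (t₀, 0) ∧ U (t₀, 0) ≠ 0 ∧
      ∀ᶠ y in 𝓝 (t₀, (0 : ℂ)), h (A y) - S y = y.2 ^ 2 * U y := by
  obtain ⟨C, hC1, hC2, U, hU1, hU2, hU3⟩ := hTI
  set ψ₀ := A (t₀, 0) with hψ₀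
  have hS0 : S (t₀, 0) = h ψ₀ := h0.self_of_nhds
  rw [hS0] at hC1 hC2
  -- `C` vanishes on the curve
  have hCt : ∀ᶠ t in 𝓝 t₀, C (A (t, 0), h (A (t, 0))) = 0 := by
    filter_upwards [h0, (tendsto_t t₀).eventually hU3] with t a1 a2
    rw [← a1, a2]
    simp
  have hCa : ∀ᶠ a in 𝓝 ψ₀, C (a, h a) = 0 := by
    obtain ⟨T, hTa, hT0, hTe, hTu⟩ := exists_T hA hAt
    have e1 : Tendsto (fun a : ℂ => T (a, 0)) (𝓝 ψ₀) (𝓝 t₀) := by
      have := hTa.continuousAt.tendsto.comp (tendsto_t ψ₀)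
      rwa [hT0] at this
    filter_upwards [e1.eventually hCt, (tendsto_t ψ₀).eventually hTe] with a a1 a2
    have a3 : A (T (a, 0), 0) = a := a2
    rw [a3] at a1
    exact a1
  -- the derivative in the second variable does not vanish
  have hds : ds C (ψ₀, h ψ₀) ≠ 0 := by
    intro hd
    apply hC2
    have e1 : HasDerivAt (fun a => C (a, h a)) (dt C (ψ₀, h ψ₀) * 1 + ds C (ψ₀, h ψ₀) * deriv h ψ₀)
        ψ₀ := hasDerivAt_comp (a := fun a => a) (b := h) hC1.differentiableAt (hasDerivAt_id ψ₀)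
          hh.differentiableAt.hasDerivAt
    have e2 : (fun a => C (a, h a)) =ᶠ[𝓝 ψ₀] fun _ => 0 := hCa
    have e3 := (e1.congr_of_eventuallyEq e2.symm).unique (hasDerivAt_const ψ₀ (0 : ℂ))
    rw [hd, zero_mul, add_zero, mul_one] at e3
    ext v
    · show fderiv ℂ C (ψ₀, h ψ₀) _ = 0
      rw [fderiv_eq, hd, e3]
      simp
    · show fderiv ℂ C (ψ₀, h ψ₀) _ = 0
      rw [fderiv_eq, hd, e3]
      simp
  -- division
  set Kf : ℂ × ℂ → ℂ := fun v => C (v.1, h v.1 - v.2) with hKf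
  have hK0 : AnalyticAt ℂ (fun v : ℂ × ℂ => (v.1, h v.1 - v.2)) (ψ₀, 0) := by
    refine AnalyticAt.prod analyticAt_fst (AnalyticAt.sub ?_ analyticAt_snd)
    exact AnalyticAt.comp_of_eq (g := h) (f := fun v : ℂ × ℂ => v.1) hh analyticAt_fst rfl
  have hKfa : AnalyticAt ℂ Kf (ψ₀, 0) := hC1.comp_of_eq hK0 (by simp)
  obtain ⟨V, v1, v2, v3⟩ := exists_div hKfa
  have hV0 : V (ψ₀, 0) ≠ 0 := by
    rw [v3]
    have e1 : HasDerivAt (fun x => Kf (ψ₀, x)) (ds Kf (ψ₀, 0)) 0 :=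
      hasDerivAt_snd hKfa.differentiableAt
    have hC1' : DifferentiableAt ℂ C (ψ₀, h ψ₀ - 0) := by
      rw [sub_zero]
      exact hC1.differentiableAt
    have e2 : HasDerivAt (fun x => C (ψ₀, h ψ₀ - x))
        (dt C (ψ₀, h ψ₀ - 0) * 0 + ds C (ψ₀, h ψ₀ - 0) * (-1)) 0 :=
      hasDerivAt_comp (a := fun _ => ψ₀) (b := fun x => h ψ₀ - x) hC1' (hasDerivAt_const _ _)
        ((hasDerivAt_id (0 : ℂ)).const_sub (h ψ₀))
    rw [sub_zero] at e2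
    have e3 := e1.unique e2
    rw [e3, mul_zero, zero_add]
    simpa using hds
  have hK00 : ∀ᶠ v in 𝓝 (ψ₀, (0 : ℂ)), Kf (v.1, 0) = 0 := by
    have hc : Tendsto (fun v : ℂ × ℂ => v.1) (𝓝 (ψ₀, (0 : ℂ))) (𝓝 ψ₀) :=
      continuous_fst.tendsto (ψ₀, (0 : ℂ))
    filter_upwards [hc.eventually hCa] with v a1
    simp only [hKf, sub_zero]
    exact a1
  -- substitute
  set W : ℂ × ℂ → ℂ := fun y => V (A y, h (A y) - S y) with hW
  have hAS : AnalyticAt ℂ (fun y => (A y, h (A y) - S y)) (t₀, 0) :=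
    AnalyticAt.prod hA ((hh.comp_of_eq hA rfl).sub hS)
  have hAS0 : (A (t₀, 0), h (A (t₀, 0)) - S (t₀, 0)) = (ψ₀, (0 : ℂ)) := by
    rw [hS0, ← hψ₀, sub_self]
  have hWa : AnalyticAt ℂ W (t₀, 0) := v1.comp_of_eq hAS hAS0
  have hW0 : W (t₀, 0) ≠ 0 := by
    have : W (t₀, 0) = V (ψ₀, 0) := congrArg V hAS0
    rw [this]
    exact hV0
  have hASt : Tendsto (fun y => (A y, h (A y) - S y)) (𝓝 (t₀, (0 : ℂ))) (𝓝 (ψ₀, (0 : ℂ))) := by
    have := hAS.continuousAt.tendsto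
    rwa [hAS0] at this
  refine ⟨fun y => U y / W y, hU1.div hWa hW0, div_ne_zero hU2 hW0, ?_⟩
  filter_upwards [hU3, hASt.eventually v2, hASt.eventually hK00,
    hWa.continuousAt.eventually_ne hW0] with y a1 a2 a3 a4
  have a5 : Kf (A y, h (A y) - S y) = C (A y, S y) := by
    simp only [hKf]
    congr 2
    ring
  rw [a5, a1, a3, zero_add] at a2
  have a6 : y.2 ^ 2 * U y = (h (A y) - S y) * W y := a2
  rw [← mul_div_assoc, a6, mul_div_cancel_right₀ _ a4]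

/-- **Glancing letter.** -/
theorem letterG {N : ℕ} (hN : 0 < N) {h : ℂ → ℂ} {A S ψ : ℂ × ℂ → ℂ} {t₀ : ℂ}
    (hA : AnalyticAt ℂ A (t₀, 0)) (hS : AnalyticAt ℂ S (t₀, 0)) (hψ : AnalyticAt ℂ ψ (t₀, 0))
    (hh : AnalyticAt ℂ h (ψ (t₀, 0)))
    (hρ : h (ψ (t₀, 0)) + deriv (deriv h) (ψ (t₀, 0)) ≠ 0)
    (hAt : dt A (t₀, 0) ≠ 0) (hgl : ∀ᶠ t in 𝓝 t₀, ψ (t, 0) = A (t, 0))
    (hrel : ∀ᶠ x in 𝓝 (t₀, (0 : ℂ)), sup h (A (pw N x)) (ψ x) = S (pw N x))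
    (hTI : TI t₀ A S) :
    ∃ Ψ : ℂ × ℂ → ℂ, AnalyticAt ℂ Ψ (t₀, 0) ∧ Ψ (t₀, 0) = ψ (t₀, 0) ∧
      (∀ᶠ x in 𝓝 (t₀, (0 : ℂ)), ψ x = Ψ (pw N x)) ∧
      (∀ᶠ y in 𝓝 (t₀, (0 : ℂ)), sup h (A y) (Ψ y) = S y) ∧
      (∀ᶠ t in 𝓝 t₀, Ψ (t, 0) = A (t, 0)) ∧
      ds (fun y => Ψ y - A y) (t₀, 0) ≠ 0 ∧
      TI t₀ (fun y => 2 * Ψ y - A y) (fun y => sup h (2 * Ψ y - A y) (Ψ y)) := by
  have hψA : ψ (t₀, 0) = A (t₀, 0) := hgl.self_of_nhds
  rw [hψA] at hh hρ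
  set ψ₀ := A (t₀, 0) with hψ₀
  -- tangency
  have h0 : ∀ᶠ t in 𝓝 t₀, S (t, 0) = h (A (t, 0)) := by
    filter_upwards [hgl, (tendsto_t t₀).eventually hrel] with t a1 a2
    rw [pw_zero hN] at a2
    rw [← a2, a1]
    simp [sup]
  obtain ⟨U, u1, u2, u3⟩ := TI_tangent hA hS hh hAt h0 hTI
  obtain ⟨K, k1, k2, k3⟩ := exists_K hh
  have hK0 : -K (ψ₀, 0) ≠ 0 := by
    intro h
    apply hρ
    have : K (ψ₀, 0) = 0 := neg_eq_zero.mp h
    rw [this, mul_zero] at k3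
    exact neg_eq_zero.mp k3.symm
  obtain ⟨κ, κ1, κ2, κ3⟩ := exists_sqrt (k1.neg) (x₀ := (ψ₀, (0 : ℂ))) hK0
  obtain ⟨u, v1, v2, v3⟩ := exists_sqrt u1 u2
  have hpw0 := pw_zero hN t₀
  have hpw := analyticAt_pw N (t₀, (0 : ℂ))
  -- `d = ψ - A`
  set d : ℂ × ℂ → ℂ := fun x => ψ x - A (pw N x) with hd
  have hApw : AnalyticAt ℂ (fun x => A (pw N x)) (t₀, 0) := hA.comp_of_eq hpw hpw0
  have hda : AnalyticAt ℂ d (t₀, 0) := hψ.sub hApw
  have hd0 : d (t₀, 0) = 0 := by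
    simp only [hd]
    rw [hpw0, hψA, sub_self]
  have hAd : AnalyticAt ℂ (fun x => (A (pw N x), d x)) (t₀, 0) := AnalyticAt.prod hApw hda
  have hAd0 : (A (pw N (t₀, 0)), d (t₀, 0)) = (ψ₀, (0 : ℂ)) := by
    rw [hpw0, hd0]
  have hAdt : Tendsto (fun x => (A (pw N x), d x)) (𝓝 (t₀, (0 : ℂ))) (𝓝 (ψ₀, (0 : ℂ))) := by
    have := hAd.continuousAt.tendsto
    rwa [hAd0] at this
  have hsq : ∀ᶠ x in 𝓝 (t₀, (0 : ℂ)),
      (d x * κ (A (pw N x), d x) - x.2 ^ N * u (pw N x)) *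
        (d x * κ (A (pw N x), d x) + x.2 ^ N * u (pw N x)) = 0 := by
    filter_upwards [hrel, (tendsto_pw hN t₀).eventually u3, (tendsto_pw hN t₀).eventually v3,
      hAdt.eventually k2, hAdt.eventually κ3] with x a1 a2 a3 a4 a5
    have a6 : A (pw N x) + d x = ψ x := by simp only [hd]; ring
    rw [a6] at a4
    have a7 : (pw N x).2 = x.2 ^ N := rfl
    rw [a7] at a2
    simp only [Pi.neg_apply] at a5
    linear_combination (d x ^ 2) * a5 - (x.2 ^ N) ^ 2 * a3 + a2 + a4 - a1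
  have hX : AnalyticAt ℂ (fun x => d x * κ (A (pw N x), d x)) (t₀, 0) :=
    hda.mul (κ1.comp_of_eq hAd hAd0)
  have hY : AnalyticAt ℂ (fun x : ℂ × ℂ => x.2 ^ N * u (pw N x)) (t₀, 0) :=
    (analyticAt_snd.pow N).mul (v1.comp_of_eq hpw hpw0)
  have hsign : ∃ ε : ℂ, ε ^ 2 = 1 ∧ ∀ᶠ x in 𝓝 (t₀, (0 : ℂ)),
      d x * κ (A (pw N x), d x) = ε * (x.2 ^ N * u (pw N x)) := by
    rcases germ_mul_eq_zero (hX.sub hY) (hX.add hY) hsq with g | g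
    · refine ⟨1, one_pow 2, ?_⟩
      filter_upwards [g] with x hx
      rw [one_mul]
      exact sub_eq_zero.mp hx
    · refine ⟨-1, by norm_num, ?_⟩
      filter_upwards [g] with x hx
      have hx' : d x * κ (A (pw N x), d x) + x.2 ^ N * u (pw N x) = 0 := hx
      linear_combination hx'
  obtain ⟨ε, hε, hsg⟩ := hsign
  -- the implicit function
  set F : (ℂ × ℂ) × ℂ → ℂ := fun v => v.2 * κ (A v.1, v.2) - ε * (v.1.2 * u v.1) with hF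
  have hAv : AnalyticAt ℂ (fun v : (ℂ × ℂ) × ℂ => (A v.1, v.2)) ((t₀, 0), 0) :=
    AnalyticAt.prod (hA.comp_of_eq analyticAt_fst rfl) analyticAt_snd
  have hFa : AnalyticAt ℂ F ((t₀, 0), 0) := by
    refine AnalyticAt.sub (analyticAt_snd.mul (κ1.comp_of_eq hAv rfl)) ?_
    exact analyticAt_const.mul ((analyticAt_snd.comp analyticAt_fst).mul
      (v1.comp_of_eq analyticAt_fst rfl))
  have hF0 : F ((t₀, 0), 0) = 0 := by simp [hF]
  have hFd : deriv (fun z => F ((t₀, 0), z)) 0 ≠ 0 := by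
    have e1 : HasDerivAt (fun z => κ (ψ₀, z)) (ds κ (ψ₀, 0)) 0 :=
      hasDerivAt_snd κ1.differentiableAt
    have e2 : HasDerivAt (fun z => z * κ (ψ₀, z)) (1 * κ (ψ₀, 0) + 0 * ds κ (ψ₀, 0)) 0 :=
      (hasDerivAt_id (0 : ℂ)).mul e1
    have e3 : HasDerivAt (fun z => z * κ (ψ₀, z) - ε * ((0 : ℂ) * u (t₀, 0)))
      (1 * κ (ψ₀, 0) + 0 * ds κ (ψ₀, 0)) 0 := e2.sub_const _
    have e4 : HasDerivAt (fun z => F ((t₀, 0), z)) (1 * κ (ψ₀, 0) + 0 * ds κ (ψ₀, 0)) 0 := e3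
    rw [e4.deriv]
    simpa using κ2
  obtain ⟨Δ, d1, d2, d3, d4⟩ := H650.ift_scalar hFa hF0 hFd
  have hdΔ : ∀ᶠ x in 𝓝 (t₀, (0 : ℂ)), d x = Δ (pw N x) := by
    have hc : Tendsto (fun x => (pw N x, d x)) (𝓝 (t₀, (0 : ℂ))) (𝓝 ((t₀, 0), 0)) := by
      have := hda.continuousAt.tendsto
      rw [hd0] at this
      exact (tendsto_pw hN t₀).prodMk_nhds this
    filter_upwards [hsg, hc.eventually d4] with x a1 a2
    refine (a2 ?_).symm
    show d x * κ (A (pw N x), d x) - ε * ((pw N x).2 * u (pw N x)) = 0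
    rw [a1]
    exact sub_self _
  have hΔ0 : ∀ᶠ t in 𝓝 t₀, Δ (t, 0) = 0 := by
    have hc : Tendsto (fun t : ℂ => (((t, 0), 0) : (ℂ × ℂ) × ℂ)) (𝓝 t₀) (𝓝 ((t₀, 0), 0)) := by
      have : ContinuousAt (fun t : ℂ => (((t, 0), 0) : (ℂ × ℂ) × ℂ)) t₀ := by fun_prop
      exact this.tendsto
    filter_upwards [hc.eventually d4] with t a1
    exact a1 (by simp [hF])
  have hΔt : Tendsto Δ (𝓝 (t₀, (0 : ℂ))) (𝓝 0) := by
    have := d1.continuousAt.tendsto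
    rwa [d2] at this
  have hAΔ : AnalyticAt ℂ (fun y => (A y, Δ y)) (t₀, 0) := AnalyticAt.prod hA d1
  have hAΔ0 : (A (t₀, 0), Δ (t₀, 0)) = (ψ₀, (0 : ℂ)) := by
    rw [d2]
  -- the derivative of `Δ`
  have hΔs : ds Δ (t₀, 0) ≠ 0 := by
    intro hz
    have e0 : (fun y => Δ y * κ (A y, Δ y)) =ᶠ[𝓝 (t₀, (0 : ℂ))] fun y => ε * (y.2 * u y) := by
      filter_upwards [d3] with y hy
      exact sub_eq_zero.mp hy
    have e1 := ds_congr e0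
    have hκ : AnalyticAt ℂ (fun y => κ (A y, Δ y)) (t₀, 0) := κ1.comp_of_eq hAΔ hAΔ0
    rw [ds_mul d1.differentiableAt hκ.differentiableAt] at e1
    have e2 : ds (fun y : ℂ × ℂ => ε * (y.2 * u y)) (t₀, 0) = ε * u (t₀, 0) := by
      have f1 : AnalyticAt ℂ (fun y : ℂ × ℂ => y.2 * u y) (t₀, 0) := analyticAt_snd.mul v1
      have f2 : HasDerivAt (fun s : ℂ => s * u (t₀, s)) (1 * u (t₀, 0) + 0 * ds u (t₀, 0)) 0 :=
        (hasDerivAt_id (0 : ℂ)).mul (hasDerivAt_snd v1.differentiableAt)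
      have f3 : HasDerivAt (fun s : ℂ => ε * (s * u (t₀, s)))
          (ε * (1 * u (t₀, 0) + 0 * ds u (t₀, 0))) 0 := f2.const_mul ε
      have f4 : HasDerivAt (fun s : ℂ => ε * (s * u (t₀, s)))
          (ds (fun y : ℂ × ℂ => ε * (y.2 * u y)) (t₀, 0)) 0 :=
        hasDerivAt_snd (f := fun y : ℂ × ℂ => ε * (y.2 * u y))
          (analyticAt_const.mul f1).differentiableAt
      rw [f4.unique f3]
      ring
    rw [e2, hz, d2, zero_mul, zero_mul, add_zero] at e1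
    have hε0 : ε ≠ 0 := by
      rintro rfl
      simp at hε
    exact mul_ne_zero hε0 v2 e1.symm
  -- division of `Δ` by `w`
  obtain ⟨D, D1, D2, D3⟩ := exists_div d1
  have hD0 : D (t₀, 0) ≠ 0 := by rw [D3]; exact hΔs
  have hΔD : ∀ᶠ y in 𝓝 (t₀, (0 : ℂ)), Δ y = y.2 * D y := by
    have hc : Tendsto (fun y : ℂ × ℂ => y.1) (𝓝 (t₀, (0 : ℂ))) (𝓝 t₀) :=
      continuous_fst.tendsto (t₀, (0 : ℂ))
    filter_upwards [D2, hc.eventually hΔ0] with y a1 a2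
    rw [a1, a2, zero_add]
  refine ⟨fun y => A y + Δ y, hA.add d1, ?_, ?_, ?_, ?_, ?_, ?_⟩
  · show A (t₀, 0) + Δ (t₀, 0) = ψ (t₀, 0)
    rw [d2, add_zero, hψA]
  · filter_upwards [hdΔ] with x a1
    rw [← a1]
    simp only [hd]
    ring
  · -- the relation in `(t, w)`
    have hc : Tendsto (fun y => (A y, Δ y)) (𝓝 (t₀, (0 : ℂ))) (𝓝 (ψ₀, (0 : ℂ))) := by
      have := hAΔ.continuousAt.tendsto
      rwa [hAΔ0] at this
    filter_upwards [hc.eventually k2, hc.eventually κ3, d3, u3, v3] with y a1 a2 a3 a4 a5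
    have a6 : Δ y * κ (A y, Δ y) - ε * (y.2 * u y) = 0 := a3
    simp only [Pi.neg_apply] at a2
    have a7 : (Δ y * κ (A y, Δ y)) ^ 2 = y.2 ^ 2 * u y ^ 2 := by
      have : Δ y * κ (A y, Δ y) = ε * (y.2 * u y) := sub_eq_zero.mp a6
      rw [this]
      linear_combination (y.2 ^ 2 * u y ^ 2) * hε
    linear_combination a1 + a4 + (Δ y ^ 2) * a2 - a7 - y.2 ^ 2 * a5
  · filter_upwards [hΔ0] with t a1
    rw [a1, add_zero]
  · have e1 : (fun y => A y + Δ y - A y) = Δ := by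
      funext y
      ring
    rw [e1]
    exact hΔs
  · -- the invariant
    have hA'0 : 2 * (A (t₀, 0) + Δ (t₀, 0)) - A (t₀, 0) = ψ₀ := by rw [d2]; ring
    have hA'a : AnalyticAt ℂ (fun y => 2 * (A y + Δ y) - A y) (t₀, 0) :=
      (analyticAt_const.mul (hA.add d1)).sub hA
    have hS'0 : sup h (2 * (A (t₀, 0) + Δ (t₀, 0)) - A (t₀, 0)) (A (t₀, 0) + Δ (t₀, 0)) =
        h ψ₀ := by
      rw [hA'0, d2, add_zero, ← hψ₀]
      simp [sup]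
    have hAm : AnalyticAt ℂ (fun y => (2 * (A y + Δ y) - A y, -Δ y)) (t₀, 0) :=
      AnalyticAt.prod hA'a d1.neg
    have hAm0 : (2 * (A (t₀, 0) + Δ (t₀, 0)) - A (t₀, 0), -Δ (t₀, 0)) = (ψ₀, (0 : ℂ)) := by
      rw [hA'0, d2, neg_zero]
    have hAmt : Tendsto (fun y => (2 * (A y + Δ y) - A y, -Δ y)) (𝓝 (t₀, (0 : ℂ)))
        (𝓝 (ψ₀, (0 : ℂ))) := by
      have := hAm.continuousAt.tendsto
      rwa [hAm0] at this
    refine ⟨fun v => h v.1 - v.2, ?_, ?_,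
      fun y => -(D y ^ 2 * K (2 * (A y + Δ y) - A y, -Δ y)), ?_, ?_, ?_⟩
    · show AnalyticAt ℂ (fun v : ℂ × ℂ => h v.1 - v.2)
        (2 * (A (t₀, 0) + Δ (t₀, 0)) - A (t₀, 0),
          sup h (2 * (A (t₀, 0) + Δ (t₀, 0)) - A (t₀, 0)) (A (t₀, 0) + Δ (t₀, 0)))
      rw [hS'0, hA'0]
      exact AnalyticAt.sub (AnalyticAt.comp_of_eq (g := h) (f := fun v : ℂ × ℂ => v.1) hh
        analyticAt_fst rfl) analyticAt_snd
    · show fderiv ℂ (fun v : ℂ × ℂ => h v.1 - v.2)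
        (2 * (A (t₀, 0) + Δ (t₀, 0)) - A (t₀, 0),
          sup h (2 * (A (t₀, 0) + Δ (t₀, 0)) - A (t₀, 0)) (A (t₀, 0) + Δ (t₀, 0))) ≠ 0
      rw [hS'0, hA'0]
      intro hz
      have f0 : AnalyticAt ℂ (fun v : ℂ × ℂ => h v.1 - v.2) (ψ₀, h ψ₀) :=
        AnalyticAt.sub (AnalyticAt.comp_of_eq (g := h) (f := fun v : ℂ × ℂ => v.1) hh
          analyticAt_fst rfl) analyticAt_snd
      have f1 : ds (fun v : ℂ × ℂ => h v.1 - v.2) (ψ₀, h ψ₀) = 0 := by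
        unfold ds
        rw [hz]
        rfl
      have f2 : HasDerivAt (fun s : ℂ => h ψ₀ - s) (-1) (h ψ₀) :=
        (hasDerivAt_id (h ψ₀)).const_sub (h ψ₀)
      have f3 : HasDerivAt (fun s : ℂ => h ψ₀ - s)
          (ds (fun v : ℂ × ℂ => h v.1 - v.2) (ψ₀, h ψ₀)) (h ψ₀) :=
        hasDerivAt_snd (f := fun v : ℂ × ℂ => h v.1 - v.2) f0.differentiableAt
      have f4 := f2.unique f3
      rw [f1] at f4
      exact (neg_ne_zero.mpr one_ne_zero) f4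
    · exact ((D1.pow 2).mul (k1.comp_of_eq hAm hAm0)).neg
    · have e1 : K (2 * (A (t₀, 0) + Δ (t₀, 0)) - A (t₀, 0), -Δ (t₀, 0)) = K (ψ₀, 0) :=
        congrArg K hAm0
      show -(D (t₀, 0) ^ 2 * K (2 * (A (t₀, 0) + Δ (t₀, 0)) - A (t₀, 0), -Δ (t₀, 0))) ≠ 0
      rw [e1]
      exact neg_ne_zero.mpr (mul_ne_zero (pow_ne_zero 2 hD0) (neg_ne_zero.mp hK0))
    · filter_upwards [hAmt.eventually k2, hΔD] with y a1 a2
      have a3 : (2 * (A y + Δ y) - A y, -Δ y).1 + (2 * (A y + Δ y) - A y, -Δ y).2 =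
          A y + Δ y := by
        show 2 * (A y + Δ y) - A y + -Δ y = A y + Δ y
        ring
      rw [a3] at a1
      show h (2 * (A y + Δ y) - A y) - sup h (2 * (A y + Δ y) - A y) (A y + Δ y) =
        y.2 ^ 2 * -(D y ^ 2 * K (2 * (A y + Δ y) - A y, -Δ y))
      have a4 : sup h (2 * (A y + Δ y) - A y) (A y + Δ y) =
        h (2 * (A y + Δ y) - A y) + (-Δ y) ^ 2 * K (2 * (A y + Δ y) - A y, -Δ y) := a1
      have a5 : (-Δ y) ^ 2 = y.2 ^ 2 * D y ^ 2 := by rw [a2]; ring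
      rw [a5] at a4
      rw [a4]
      ring

end Vale.Agent.P097.H123.Star
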