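import Vale.Agent.P097.H123.StarD

/-! # P097 / FCT / S11: one letter of the star chain (helper123) -/

set_option linter.all false

open Complex Filter Topology Set Metric

namespace Vale.Agent.P097.H123.Star

/-- the tangency invariant is invariant under translation of the angle -/
theorem TI.shift {t₀ : ℂ} {A S : ℂ × ℂ → ℂ} (h : TI t₀ A S) (c : ℂ) :
    TI t₀ (fun y => A y + c) S := by
  obtain ⟨C, h1, h2, U, h3, h4, h5⟩ := h
  have e0 : AnalyticAt ℂ (fun v : ℂ × ℂ => (v.1 - c, v.2)) (A (t₀, 0) + c, S (t₀, 0)) :=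
    AnalyticAt.prod (analyticAt_fst.sub analyticAt_const) analyticAt_snd
  have e1 : (A (t₀, 0) + c - c, S (t₀, 0)) = (A (t₀, 0), S (t₀, 0)) := by
    rw [add_sub_cancel_right]
  refine ⟨fun v => C (v.1 - c, v.2), h1.comp_of_eq e0 e1, ?_, U, h3, h4, ?_⟩
  · intro h0
    apply h2
    have k0 : DifferentiableAt ℂ (fun v : ℂ × ℂ => (v.1 + c, v.2)) (A (t₀, 0), S (t₀, 0)) := by
      fun_prop
    have k1 : C = fun v => (fun v : ℂ × ℂ => C (v.1 - c, v.2)) ((fun v : ℂ × ℂ => (v.1 + c, v.2)) v) := by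
      funext v
      show C v = C (v.1 + c - c, v.2)
      rw [add_sub_cancel_right]
    have k2 : DifferentiableAt ℂ (fun v : ℂ × ℂ => C (v.1 - c, v.2))
        ((fun v : ℂ × ℂ => (v.1 + c, v.2)) (A (t₀, 0), S (t₀, 0))) :=
      (h1.comp_of_eq e0 e1).differentiableAt
    have k3 := fderiv_comp (A (t₀, 0), S (t₀, 0)) k2 k0
    have k4 : fderiv ℂ C (A (t₀, 0), S (t₀, 0)) = (fderiv ℂ (fun v : ℂ × ℂ => C (v.1 - c, v.2))
        (A (t₀, 0) + c, S (t₀, 0))).comp (fderiv ℂ (fun v : ℂ × ℂ => (v.1 + c, v.2))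
          (A (t₀, 0), S (t₀, 0))) := by
      rw [← k3]
      congr 1
    rw [k4]
    have h0' : fderiv ℂ (fun v : ℂ × ℂ => C (v.1 - c, v.2)) (A (t₀, 0) + c, S (t₀, 0)) = 0 := h0
    rw [h0', ContinuousLinearMap.zero_comp]
  · filter_upwards [h5] with y hy
    rw [← hy]
    show C (A y + c - c, S y) = C (A y, S y)
    rw [add_sub_cancel_right]

theorem cos_pi_sq (k : ℤ) : Complex.cos (Real.pi * k) ^ 2 = 1 := by
  have h1 : Complex.sin (Real.pi * k) = 0 := by
    rw [mul_comm]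
    exact Complex.sin_int_mul_pi k
  have := Complex.sin_sq_add_cos_sq (Real.pi * k)
  rw [h1] at this
  simpa using this

theorem sin_pi_int (k : ℤ) : Complex.sin (Real.pi * k) = 0 := by
  rw [mul_comm]
  exact Complex.sin_int_mul_pi k

/-- change of branch of the mirror -/
theorem sup_shift (h : ℂ → ℂ) (k : ℤ) (A ψ : ℂ) :
    sup (fun x => Complex.cos (Real.pi * k) * h (x + Real.pi * k)) A ψ =
      sup h A (ψ + Real.pi * k) ∧
    sup (fun x => Complex.cos (Real.pi * k) * h (x + Real.pi * k)) A ψ =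
      sup h (A + 2 * Real.pi * k) (ψ + Real.pi * k) := by
  have hd : deriv (fun x => Complex.cos (Real.pi * k) * h (x + Real.pi * k)) ψ =
      Complex.cos (Real.pi * k) * deriv h (ψ + Real.pi * k) := by
    rw [deriv_const_mul_field]
    congr 1
    exact deriv_comp_add_const h (Real.pi * k) ψ
  unfold sup
  rw [hd]
  constructor
  · have e1 : ψ + Real.pi * k - A = (ψ - A) + Real.pi * k := by ring
    rw [e1, Complex.cos_add (ψ - A) (Real.pi * k), Complex.sin_add (ψ - A) (Real.pi * k),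
      sin_pi_int]
    ring
  · have e1 : ψ + Real.pi * k - (A + 2 * Real.pi * k) = (ψ - A) - Real.pi * k := by ring
    rw [e1, Complex.cos_sub (ψ - A) (Real.pi * k), Complex.sin_sub (ψ - A) (Real.pi * k),
      sin_pi_int]
    ring

theorem exp_line {h h' A ψ : ℂ} :
    (h + I * h') * Complex.exp (I * ψ) + Complex.exp (I * A) ^ 2 *
      ((h - I * h') * Complex.exp (-(I * ψ))) =
      2 * (h * Complex.cos (ψ - A) - h' * Complex.sin (ψ - A)) * Complex.exp (I * A) := by
  have e1 : Complex.exp (I * ψ) = Complex.exp (I * (ψ - A)) * Complex.exp (I * A) := by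
    rw [← Complex.exp_add]; congr 1; ring
  have e2 : Complex.exp (I * A) ^ 2 * Complex.exp (-(I * ψ)) =
      Complex.exp (-(I * (ψ - A))) * Complex.exp (I * A) := by
    rw [sq, ← Complex.exp_add, ← Complex.exp_add, ← Complex.exp_add]; congr 1; ring
  have e3 : Complex.cos (ψ - A) = (Complex.exp (I * (ψ - A)) + Complex.exp (-(I * (ψ - A)))) / 2 := by
    rw [Complex.cos]
    congr 2
    · congr 1; ring
    · congr 1; ring
  have e4 : Complex.sin (ψ - A) =
      (Complex.exp (-(I * (ψ - A))) - Complex.exp (I * (ψ - A))) * I / 2 := by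
    rw [Complex.sin]
    have a1 : -(ψ - A) * I = -(I * (ψ - A)) := by ring
    have a2 : (ψ - A) * I = I * (ψ - A) := by ring
    rw [a1, a2]
  rw [e3, e4, e1]
  linear_combination (h - I * h') * e2

/-- **One letter of the star chain.** -/
theorem step {N : ℕ} (hN : 0 < N) {A S e e' P Q E : ℂ × ℂ → ℂ} {t₀ : ℂ}
    (hA : AnalyticAt ℂ A (t₀, 0)) (hS : AnalyticAt ℂ S (t₀, 0)) (hTI : TI t₀ A S)
    (he : AnalyticAt ℂ e (t₀, 0)) (he' : AnalyticAt ℂ e' (t₀, 0)) (hP : AnalyticAt ℂ P (t₀, 0))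
    (hQ : AnalyticAt ℂ Q (t₀, 0)) (hE : AnalyticAt ℂ E (t₀, 0)) (he0 : e (t₀, 0) ≠ 0)
    (he'0 : e' (t₀, 0) ≠ 0)
    (hEE : ∀ᶠ u in 𝓝 (t₀, (0 : ℂ)), E u ^ 2 = -(e u * e' u))
    (law : ∀ᶠ u in 𝓝 (t₀, (0 : ℂ)), dt P u = e u * e' u * dt Q u ∧ ds P u = e u * e' u * ds Q u)
    (hq : dt Q (t₀, 0) ≠ 0) (hE' : dt E (t₀, 0) ≠ 0)
    (kind : (∀ᶠ t in 𝓝 t₀, e' (t, 0) = e (t, 0)) ∨ e' (t₀, 0) ≠ e (t₀, 0))
    (hin : ∀ᶠ u in 𝓝 (t₀, (0 : ℂ)), e u = I * Complex.exp (I * A (pw N u)) ∧
      P u - e u ^ 2 * Q u = 2 * S (pw N u) * Complex.exp (I * A (pw N u))) :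
    ∃ (h : ℂ → ℂ) (Ψ : ℂ × ℂ → ℂ), AnalyticAt ℂ Ψ (t₀, 0) ∧ AnalyticAt ℂ h (Ψ (t₀, 0)) ∧
      (∀ᶠ u in 𝓝 (t₀, (0 : ℂ)), Complex.exp (I * Ψ (pw N u)) = E u) ∧
      (∀ᶠ u in 𝓝 (t₀, (0 : ℂ)),
        P u = (h (Ψ (pw N u)) + I * deriv h (Ψ (pw N u))) * Complex.exp (I * Ψ (pw N u)) ∧
        Q u = (h (Ψ (pw N u)) - I * deriv h (Ψ (pw N u))) * Complex.exp (-(I * Ψ (pw N u)))) ∧
      h (Ψ (t₀, 0)) + deriv (deriv h) (Ψ (t₀, 0)) ≠ 0 ∧ dt Ψ (t₀, 0) ≠ 0 ∧
      (∀ᶠ y in 𝓝 (t₀, (0 : ℂ)), sup h (A y) (Ψ y) = S y) ∧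
      TI t₀ (fun y => 2 * Ψ y - A y) (fun y => sup h (2 * Ψ y - A y) (Ψ y)) ∧
      (∀ᶠ u in 𝓝 (t₀, (0 : ℂ)), e' u = I * Complex.exp (I * (2 * Ψ (pw N u) - A (pw N u))) ∧
        P u - e' u ^ 2 * Q u = 2 * sup h (2 * Ψ (pw N u) - A (pw N u)) (Ψ (pw N u)) *
          Complex.exp (I * (2 * Ψ (pw N u) - A (pw N u)))) ∧
      ((e' (t₀, 0) ≠ e (t₀, 0) ∧ Complex.sin (Ψ (t₀, 0) - A (t₀, 0)) ≠ 0) ∨
        ∃ (k : ℤ) (D : ℂ × ℂ → ℂ), AnalyticAt ℂ D (t₀, 0) ∧ D (t₀, 0) ≠ 0 ∧
          ∀ᶠ y in 𝓝 (t₀, (0 : ℂ)), Ψ y - A y = Real.pi * k + y.2 * D y) := by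
  have hpw0 := pw_zero hN t₀
  have hpw := analyticAt_pw N (t₀, (0 : ℂ))
  have hApw : AnalyticAt ℂ (fun x => A (pw N x)) (t₀, 0) := hA.comp_of_eq hpw hpw0
  -- the normal angle of the vertex
  have hE0 : E (t₀, 0) ≠ 0 := by
    intro h0
    have := hEE.self_of_nhds
    rw [h0] at this
    have h1 : e (t₀, 0) * e' (t₀, 0) = 0 := by linear_combination this
    exact (mul_ne_zero he0 he'0) h1
  obtain ⟨a, ha, ha0, hae⟩ := exists_log hE (a₀ := Complex.log (E (t₀, 0))) (Complex.exp_log hE0)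
  set ψ : ℂ × ℂ → ℂ := fun u => -I * a u with hψdef
  have hψ : AnalyticAt ℂ ψ (t₀, 0) := analyticAt_const.mul ha
  have hIψ : ∀ u, I * ψ u = a u := by
    intro u
    simp only [hψdef]
    linear_combination (-a u) * I_mul_I
  have hψE : ∀ᶠ u in 𝓝 (t₀, (0 : ℂ)), Complex.exp (I * ψ u) = E u := by
    filter_upwards [hae] with u hu
    rw [hIψ, hu]
  have hψt : dt ψ (t₀, 0) ≠ 0 := by
    intro h0
    apply hE'
    have e0 : E =ᶠ[𝓝 (t₀, (0 : ℂ))] fun u => (fun z => Complex.exp (I * z)) (ψ u) := by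
      filter_upwards [hψE] with u hu
      exact hu.symm
    rw [dt_congr e0, dt_comp (F := fun z => Complex.exp (I * z)) (by fun_prop) hψ.differentiableAt,
      h0, mul_zero]
  have hee : ∀ᶠ u in 𝓝 (t₀, (0 : ℂ)), e u * e' u = -Complex.exp (2 * I * ψ u) := by
    filter_upwards [hEE, hψE] with u a1 a2
    have : Complex.exp (2 * I * ψ u) = E u ^ 2 := by
      rw [← a2, sq, ← Complex.exp_add]
      congr 1
      ring
    rw [this, a1]
    ring
  obtain ⟨h, hh, hPQ, hρ⟩ := mirror hP hQ hψ hψt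
    (by filter_upwards [law, hee] with u a1 a2; rw [← a2]; exact a1.1)
    (by filter_upwards [law, hee] with u a1 a2; rw [← a2]; exact a1.2)
  replace hρ := hρ hq
  -- incoming line
  have hrel : ∀ᶠ x in 𝓝 (t₀, (0 : ℂ)), sup h (A (pw N x)) (ψ x) = S (pw N x) := by
    filter_upwards [hin, hPQ] with u a1 a2
    obtain ⟨b1, b2⟩ := a1
    have e2 : e u ^ 2 = -Complex.exp (I * A (pw N u)) ^ 2 := by
      rw [b1, mul_pow, I_sq]; ring
    rw [e2, a2.1, a2.2] at b2
    have e3 := exp_line (h := h (ψ u)) (h' := deriv h (ψ u)) (A := A (pw N u)) (ψ := ψ u)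
    have e4 : 2 * Complex.exp (I * A (pw N u)) *
        (sup h (A (pw N u)) (ψ u) - S (pw N u)) = 0 := by
      unfold sup
      linear_combination b2 - e3
    have e5 := (mul_eq_zero.mp e4).resolve_left (mul_ne_zero two_ne_zero (Complex.exp_ne_zero _))
    exact sub_eq_zero.mp e5
  -- outgoing line
  have hout : ∀ᶠ u in 𝓝 (t₀, (0 : ℂ)), e' u = I * Complex.exp (I * (2 * ψ u - A (pw N u))) ∧
      P u - e' u ^ 2 * Q u = 2 * sup h (2 * ψ u - A (pw N u)) (ψ u) *
        Complex.exp (I * (2 * ψ u - A (pw N u))) := by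
    filter_upwards [hin, hPQ, hee] with u a1 a2 a3
    have b0 : e' u = I * Complex.exp (I * (2 * ψ u - A (pw N u))) := by
      have c1 : Complex.exp (2 * I * ψ u) =
          Complex.exp (I * A (pw N u)) * Complex.exp (I * (2 * ψ u - A (pw N u))) := by
        rw [← Complex.exp_add]; congr 1; ring
      have c2 : I * Complex.exp (I * A (pw N u)) *
          (e' u - I * Complex.exp (I * (2 * ψ u - A (pw N u)))) = 0 := by
        rw [← a1.1]
        have c3 : e u * (I * Complex.exp (I * (2 * ψ u - A (pw N u)))) =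
            -Complex.exp (2 * I * ψ u) := by
          rw [a1.1, c1]
          linear_combination (Complex.exp (I * A (pw N u)) *
            Complex.exp (I * (2 * ψ u - A (pw N u)))) * I_mul_I
        rw [mul_sub, a3, c3, sub_self]
      exact sub_eq_zero.mp ((mul_eq_zero.mp c2).resolve_left
        (mul_ne_zero I_ne_zero (Complex.exp_ne_zero _)))
    refine ⟨b0, ?_⟩
    have e2 : e' u ^ 2 = -Complex.exp (I * (2 * ψ u - A (pw N u))) ^ 2 := by
      rw [b0, mul_pow, I_sq]; ring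
    rw [e2, a2.1, a2.2]
    have e3 := exp_line (h := h (ψ u)) (h' := deriv h (ψ u)) (A := 2 * ψ u - A (pw N u))
      (ψ := ψ u)
    unfold sup
    linear_combination e3
  -- the two kinds
  rcases kind with hg | ht
  · -- glancing
    have hexp : ∀ᶠ t in 𝓝 t₀, Complex.exp (2 * I * (ψ (t, 0) - A (t, 0))) = 1 := by
      filter_upwards [hg, (tendsto_t t₀).eventually hin, (tendsto_t t₀).eventually hout] with t a1 a2 a3
      have b1 := a2.1
      have b2 := a3.1
      rw [pw_zero hN] at b1 b2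
      rw [a1, b1] at b2
      have b3 : Complex.exp (I * A (t, 0)) = Complex.exp (I * (2 * ψ (t, 0) - A (t, 0))) :=
        mul_left_cancel₀ I_ne_zero b2
      have b4 : I * (2 * ψ (t, 0) - A (t, 0)) =
          2 * I * (ψ (t, 0) - A (t, 0)) + I * A (t, 0) := by ring
      rw [b4, Complex.exp_add] at b3
      exact (mul_right_cancel₀ (Complex.exp_ne_zero (I * A (t, 0)))
        ((one_mul _).trans b3)).symm
    obtain ⟨k, hk⟩ := Complex.exp_eq_one_iff.mp hexp.self_of_nhds
    have hk' : ψ (t₀, 0) - A (t₀, 0) = Real.pi * k := by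
      have : 2 * I * (ψ (t₀, 0) - A (t₀, 0) - Real.pi * k) = 0 := by
        linear_combination hk
      exact sub_eq_zero.mp ((mul_eq_zero.mp this).resolve_left
        (mul_ne_zero two_ne_zero I_ne_zero))
    have hgl : ∀ᶠ t in 𝓝 t₀, ψ (t, 0) - Real.pi * k = A (t, 0) := by
      have hc : ContinuousAt (fun t : ℂ => ψ (t, 0) - A (t, 0)) t₀ := by
        have c1 : AnalyticAt ℂ (fun u => ψ u - A u) (t₀, 0) := hψ.sub hA
        exact ContinuousAt.comp (f := fun t : ℂ => ((t, 0) : ℂ × ℂ)) (g := fun u => ψ u - A u)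
          c1.continuousAt (by fun_prop)
      have hc2 : ∀ᶠ t in 𝓝 t₀, ‖(ψ (t, 0) - A (t, 0)) - (ψ (t₀, 0) - A (t₀, 0))‖ < 1 := by
        have := Metric.tendsto_nhds.mp hc.tendsto 1 one_pos
        filter_upwards [this] with t ht
        rwa [dist_eq_norm] at ht
      filter_upwards [hexp, hc2] with t a1 a2
      obtain ⟨m, hm⟩ := Complex.exp_eq_one_iff.mp a1
      have hm' : ψ (t, 0) - A (t, 0) = Real.pi * m := by
        have : 2 * I * (ψ (t, 0) - A (t, 0) - Real.pi * m) = 0 := by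
          linear_combination hm
        exact sub_eq_zero.mp ((mul_eq_zero.mp this).resolve_left
          (mul_ne_zero two_ne_zero I_ne_zero))
      rw [hm', hk'] at a2
      have e1 : (Real.pi : ℂ) * m - Real.pi * k = ((Real.pi * ((m - k : ℤ) : ℝ) : ℝ) : ℂ) := by
        push_cast; ring
      rw [e1, Complex.norm_real, Real.norm_eq_abs, abs_mul, abs_of_pos Real.pi_pos] at a2
      have e2 : m = k := by
        by_contra hne
        have : (1 : ℝ) ≤ |((m - k : ℤ) : ℝ)| := by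
          rw [← Int.cast_abs]
          have : 1 ≤ |m - k| := Int.one_le_abs (sub_ne_zero.mpr hne)
          exact_mod_cast this
        have h3 := Real.pi_gt_three
        nlinarith
      rw [e2] at hm'
      linear_combination hm'
    -- change of branch
    set ht : ℂ → ℂ := fun x => Complex.cos (Real.pi * k) * h (x + Real.pi * k) with hht
    set ψt : ℂ × ℂ → ℂ := fun u => ψ u - Real.pi * k with hψt'
    have hc0 : Complex.cos (Real.pi * k) ≠ 0 := by
      intro h0
      have := cos_pi_sq k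
      rw [h0] at this
      norm_num at this
    have hψta : AnalyticAt ℂ ψt (t₀, 0) := hψ.sub analyticAt_const
    have hadd : ψt (t₀, 0) + Real.pi * k = ψ (t₀, 0) := by simp only [hψt']; ring
    have hhta : AnalyticAt ℂ ht (ψt (t₀, 0)) := by
      refine analyticAt_const.mul (AnalyticAt.comp_of_eq (f := fun x : ℂ => x + Real.pi * k) hh
        (analyticAt_id.add analyticAt_const) hadd)
    have hder1 : deriv ht = fun x => Complex.cos (Real.pi * k) * deriv h (x + Real.pi * k) := by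
      funext x
      rw [hht, deriv_const_mul_field]
      congr 1
      exact deriv_comp_add_const h (Real.pi * k) x
    have hder2 : deriv (deriv ht) (ψt (t₀, 0)) =
        Complex.cos (Real.pi * k) * deriv (deriv h) (ψ (t₀, 0)) := by
      rw [hder1, deriv_const_mul_field]
      congr 1
      rw [deriv_comp_add_const (deriv h) (Real.pi * k) (ψt (t₀, 0)), hadd]
    have hρt : ht (ψt (t₀, 0)) + deriv (deriv ht) (ψt (t₀, 0)) ≠ 0 := by
      rw [hder2]
      simp only [hht, hadd]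
      rw [← mul_add]
      exact mul_ne_zero hc0 hρ
    have hAt : dt A (t₀, 0) ≠ 0 := by
      intro h0
      apply hψt
      have e1 : HasDerivAt (fun t => ψ (t, 0)) (dt ψ (t₀, 0)) t₀ :=
        hasDerivAt_fst hψ.differentiableAt
      have e2 : HasDerivAt (fun t => A (t, 0) + Real.pi * k) (dt A (t₀, 0)) t₀ :=
        (hasDerivAt_fst hA.differentiableAt).add_const _
      have e3 : (fun t => ψ (t, 0)) =ᶠ[𝓝 t₀] fun t => A (t, 0) + Real.pi * k := by
        filter_upwards [hgl] with t a1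
        linear_combination a1
      exact (e1.unique (e2.congr_of_eventuallyEq e3)).trans h0
    have hrelt : ∀ᶠ x in 𝓝 (t₀, (0 : ℂ)), sup ht (A (pw N x)) (ψt x) = S (pw N x) := by
      filter_upwards [hrel] with x a1
      rw [← a1, (sup_shift h k (A (pw N x)) (ψt x)).1]
      congr 1
      simp only [hψt']
      ring
    obtain ⟨Ψt, g1, g2, g3, g4, g5, g6, g7⟩ :=
      letterG hN hA hS hψta hhta hρt hAt hgl hrelt hTI
    have hΨ0 : Ψt (t₀, 0) + Real.pi * k = ψ (t₀, 0) := by rw [g2, hadd]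
    have hψΨ : ∀ᶠ u in 𝓝 (t₀, (0 : ℂ)), ψ u = Ψt (pw N u) + Real.pi * k := by
      filter_upwards [g3] with u a1
      rw [← a1]
      simp only [hψt']
      ring
    refine ⟨h, fun y => Ψt y + Real.pi * k, g1.add analyticAt_const, ?_, ?_, ?_, ?_, ?_, ?_, ?_,
      ?_, ?_⟩
    · show AnalyticAt ℂ h (Ψt (t₀, 0) + Real.pi * k)
      rw [hΨ0]
      exact hh
    · filter_upwards [hψE, hψΨ] with u a1 a2
      rw [← a2]
      exact a1
    · filter_upwards [hPQ, hψΨ] with u a1 a2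
      rw [← a2]
      exact a1
    · show h (Ψt (t₀, 0) + Real.pi * k) + deriv (deriv h) (Ψt (t₀, 0) + Real.pi * k) ≠ 0
      rw [hΨ0]
      exact hρ
    · intro h0
      apply hψt
      have e1 : HasDerivAt (fun t => ψ (t, 0)) (dt ψ (t₀, 0)) t₀ :=
        hasDerivAt_fst hψ.differentiableAt
      have e2 : HasDerivAt (fun t => Ψt (t, 0) + Real.pi * k)
          (dt (fun y => Ψt y + Real.pi * k) (t₀, 0)) t₀ :=
        hasDerivAt_fst (f := fun y => Ψt y + Real.pi * k)
          (g1.add analyticAt_const).differentiableAt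
      have e3 : (fun t => ψ (t, 0)) =ᶠ[𝓝 t₀] fun t => Ψt (t, 0) + Real.pi * k := by
        filter_upwards [(tendsto_t t₀).eventually hψΨ] with t a1
        rw [pw_zero hN] at a1
        exact a1
      exact (e1.unique (e2.congr_of_eventuallyEq e3)).trans h0
    · filter_upwards [g4] with y a1
      rw [← a1]
      exact (sup_shift h k (A y) (Ψt y)).1.symm
    · have e1 := g7.shift (2 * Real.pi * k)
      have e2 : (fun y => 2 * (Ψt y + Real.pi * k) - A y) =
          fun y => 2 * Ψt y - A y + 2 * Real.pi * k := by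
        funext y
        ring
      have e3 : (fun y => sup h (2 * (Ψt y + Real.pi * k) - A y) (Ψt y + Real.pi * k)) =
          fun y => sup ht (2 * Ψt y - A y) (Ψt y) := by
        funext y
        rw [(sup_shift h k (2 * Ψt y - A y) (Ψt y)).2]
        congr 1
        ring
      rw [e2, e3]
      exact e1
    · filter_upwards [hout, hψΨ] with u a1 a2
      rw [← a2]
      exact a1
    · right
      have hΔa : AnalyticAt ℂ (fun y => Ψt y - A y) (t₀, 0) := g1.sub hA
      obtain ⟨D, D1, D2, D3⟩ := exists_div hΔa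
      refine ⟨k, D, D1, ?_, ?_⟩
      · rw [D3]
        exact g6
      · have hc : Tendsto (fun y : ℂ × ℂ => y.1) (𝓝 (t₀, (0 : ℂ))) (𝓝 t₀) :=
          continuous_fst.tendsto (t₀, (0 : ℂ))
        filter_upwards [D2, hc.eventually g5] with y a1 a2
        have a3 : Ψt y - A y = Ψt (y.1, 0) - A (y.1, 0) + y.2 * D y := a1
        rw [a2, sub_self, zero_add] at a3
        show Ψt y + Real.pi * k - A y = Real.pi * k + y.2 * D y
        rw [← a3]
        ring
  · -- transversal
    have hs : Complex.sin (ψ (t₀, 0) - A (t₀, 0)) ≠ 0 := by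
      intro h0
      apply ht
      have b1 := hin.self_of_nhds.1
      have b2 := hout.self_of_nhds.1
      rw [hpw0] at b1 b2
      rw [b1, b2]
      congr 1
      have b4 : I * (2 * ψ (t₀, 0) - A (t₀, 0)) =
          (ψ (t₀, 0) - A (t₀, 0)) * I + ((ψ (t₀, 0) - A (t₀, 0)) * I + I * A (t₀, 0)) := by ring
      rw [b4, Complex.exp_add, Complex.exp_add, Complex.exp_mul_I, h0, zero_mul, add_zero,
        ← mul_assoc, ← sq]
      have b5 := Complex.sin_sq_add_cos_sq (ψ (t₀, 0) - A (t₀, 0))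
      rw [h0] at b5
      have b6 : Complex.cos (ψ (t₀, 0) - A (t₀, 0)) ^ 2 = 1 := by simpa using b5
      rw [b6, one_mul]
    obtain ⟨Ψ, g1, g2, g3, g4, g5⟩ := letterT hN hA hS hψ hh hρ hs hrel hTI
    refine ⟨h, Ψ, g1, ?_, ?_, ?_, ?_, ?_, g4, g5, ?_, ?_⟩
    · rw [g2]
      exact hh
    · filter_upwards [hψE, g3] with u a1 a2
      rw [← a2]
      exact a1
    · filter_upwards [hPQ, g3] with u a1 a2
      rw [← a2]
      exact a1
    · rw [g2]
      exact hρ
    · intro h0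
      apply hψt
      have e1 : HasDerivAt (fun t => ψ (t, 0)) (dt ψ (t₀, 0)) t₀ :=
        hasDerivAt_fst hψ.differentiableAt
      have e2 : HasDerivAt (fun t => Ψ (t, 0)) (dt Ψ (t₀, 0)) t₀ :=
        hasDerivAt_fst g1.differentiableAt
      have e3 : (fun t => ψ (t, 0)) =ᶠ[𝓝 t₀] fun t => Ψ (t, 0) := by
        filter_upwards [(tendsto_t t₀).eventually g3] with t a1
        rw [pw_zero hN] at a1
        exact a1
      exact (e1.unique (e2.congr_of_eventuallyEq e3)).trans h0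
    · filter_upwards [hout, g3] with u a1 a2
      rw [← a2]
      exact a1
    · left
      refine ⟨ht, ?_⟩
      rw [g2]
      exact hs

end Vale.Agent.P097.H123.Star
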