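import Vale.Agent.P097.H123.StarF

/-! # P097 / FCT / S11: the star word (helper123) -/

set_option linter.all false

open Complex Filter Topology Set Metric
open Vale.Agent.P097.TA

namespace Vale.Agent.P097.H123.Star

open Vale.Agent.P097.H202 Vale.Agent.P097.H456.Fct

variable {κ Λ : ℝ} {H Φ : ℂ → ℂ} {r e' : ℝ} {α p : ℂ → ℂ → ℂ} {J : ℂ → ℂ}

/-- a continuous logarithm of `1` is locally constant -/
theorem const_branch {X : Type*} [TopologicalSpace X] {f : X → ℂ} {x₀ : X}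
    (hf : ContinuousAt f x₀) (h : ∀ᶠ x in 𝓝 x₀, Complex.exp (I * f x) = 1) :
    ∃ k : ℤ, ∀ᶠ x in 𝓝 x₀, f x = 2 * Real.pi * k := by
  have key : ∀ x, Complex.exp (I * f x) = 1 → ∃ k : ℤ, f x = 2 * Real.pi * k := by
    intro x hx
    obtain ⟨k, hk⟩ := Complex.exp_eq_one_iff.mp hx
    refine ⟨k, ?_⟩
    have : I * (f x - 2 * Real.pi * k) = 0 := by linear_combination hk
    exact sub_eq_zero.mp ((mul_eq_zero.mp this).resolve_left I_ne_zero)
  obtain ⟨k, hk⟩ := key x₀ h.self_of_nhds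
  refine ⟨k, ?_⟩
  have hc2 : ∀ᶠ x in 𝓝 x₀, ‖f x - f x₀‖ < 1 := by
    have := Metric.tendsto_nhds.mp hf.tendsto 1 one_pos
    filter_upwards [this] with t ht
    rwa [dist_eq_norm] at ht
  filter_upwards [h, hc2] with x a1 a2
  obtain ⟨m, hm⟩ := key x a1
  rw [hm, hk] at a2
  have e1 : (2 * Real.pi : ℂ) * m - 2 * Real.pi * k =
      ((2 * Real.pi * ((m - k : ℤ) : ℝ) : ℝ) : ℂ) := by
    push_cast; ring
  rw [e1, Complex.norm_real, Real.norm_eq_abs, abs_mul, abs_of_pos (by positivity)] at a2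
  have e2 : m = k := by
    by_contra hne
    have : (1 : ℝ) ≤ |((m - k : ℤ) : ℝ)| := by
      rw [← Int.cast_abs]
      have : 1 ≤ |m - k| := Int.one_le_abs (sub_ne_zero.mpr hne)
      exact_mod_cast this
    have h3 := Real.pi_gt_three
    nlinarith
  rw [hm, e2]

theorem exists_min (ρ : ℕ → ℝ) (hρ : ∀ j, ρ j > 0) (n : ℕ) : ∃ r > 0, ∀ j < n, r ≤ ρ j := by
  induction n with
  | zero => exact ⟨1, one_pos, fun j hj => absurd hj (Nat.not_lt_zero j)⟩
  | succ m ih =>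
    obtain ⟨r, hr, h⟩ := ih
    refine ⟨min r (ρ m), lt_min hr (hρ m), ?_⟩
    intro j hj
    by_cases hjm : j < m
    · exact (min_le_left _ _).trans (h j hjm)
    · obtain rfl : j = m := by omega
      exact min_le_right _ _

/-- properties of a line of the star chain -/
def LineP (N n : ℕ) (t₀ : ℂ) (e P Q : ℕ → ℂ × ℂ → ℂ) (j : ℕ)
    (x : (ℂ × ℂ → ℂ) × (ℂ × ℂ → ℂ)) : Prop :=
  AnalyticAt ℂ x.1 (t₀, 0) ∧ AnalyticAt ℂ x.2 (t₀, 0) ∧ TI t₀ x.1 x.2 ∧
    (∀ᶠ u in 𝓝 (t₀, (0 : ℂ)), e j u = I * Complex.exp (I * x.1 (pw N u))) ∧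
    (j < n → ∀ᶠ u in 𝓝 (t₀, (0 : ℂ)), P j u - e j u ^ 2 * Q j u =
      2 * x.2 (pw N u) * Complex.exp (I * x.1 (pw N u))) ∧
    ∀ i, i + 1 = j → ∀ᶠ u in 𝓝 (t₀, (0 : ℂ)), P i u - e j u ^ 2 * Q i u =
      2 * x.2 (pw N u) * Complex.exp (I * x.1 (pw N u))

/-- properties of a letter of the star chain -/
def LetP (N : ℕ) (t₀ : ℂ) (e P Q E : ℕ → ℂ × ℂ → ℂ) (j : ℕ)
    (x y : (ℂ × ℂ → ℂ) × (ℂ × ℂ → ℂ)) (b : (ℂ → ℂ) × (ℂ × ℂ → ℂ)) : Prop :=
  y = (fun z => 2 * b.2 z - x.1 z, fun z => sup b.1 (2 * b.2 z - x.1 z) (b.2 z)) ∧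
    AnalyticAt ℂ b.2 (t₀, 0) ∧ AnalyticAt ℂ b.1 (b.2 (t₀, 0)) ∧
      (∀ᶠ u in 𝓝 (t₀, (0 : ℂ)), Complex.exp (I * b.2 (pw N u)) = E j u) ∧
      (∀ᶠ u in 𝓝 (t₀, (0 : ℂ)),
        P j u = (b.1 (b.2 (pw N u)) + I * deriv b.1 (b.2 (pw N u))) *
          Complex.exp (I * b.2 (pw N u)) ∧
        Q j u = (b.1 (b.2 (pw N u)) - I * deriv b.1 (b.2 (pw N u))) *
          Complex.exp (-(I * b.2 (pw N u)))) ∧
      b.1 (b.2 (t₀, 0)) + deriv (deriv b.1) (b.2 (t₀, 0)) ≠ 0 ∧ dt b.2 (t₀, 0) ≠ 0 ∧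
      (∀ᶠ z in 𝓝 (t₀, (0 : ℂ)), sup b.1 (x.1 z) (b.2 z) = x.2 z) ∧
      ((e (j + 1) (t₀, 0) ≠ e j (t₀, 0) ∧ Complex.sin (b.2 (t₀, 0) - x.1 (t₀, 0)) ≠ 0) ∨
        ∃ (k : ℤ) (D : ℂ × ℂ → ℂ), AnalyticAt ℂ D (t₀, 0) ∧ D (t₀, 0) ≠ 0 ∧
          ∀ᶠ z in 𝓝 (t₀, (0 : ℂ)), b.2 z - x.1 z = Real.pi * k + z.2 * D z)

/-- the chain of lines of the star word -/
theorem exists_chain (T : Ctx κ Λ H Φ r e' α p J) {N n : ℕ} (hN : 1 ≤ N) (t₀ : ℝ)
    {e P Q E : ℕ → ℂ × ℂ → ℂ}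
    (he : ∀ j ≤ n, AnalyticAt ℂ (e j) ((t₀ : ℂ), 0) ∧ e j ((t₀ : ℂ), 0) ≠ 0)
    (hP : ∀ j < n, AnalyticAt ℂ (P j) ((t₀ : ℂ), 0))
    (hQ : ∀ j < n, AnalyticAt ℂ (Q j) ((t₀ : ℂ), 0))
    (hE : ∀ j < n, AnalyticAt ℂ (E j) ((t₀ : ℂ), 0))
    (hEE : ∀ j < n, ∀ᶠ u in 𝓝 ((t₀ : ℂ), (0 : ℂ)), E j u ^ 2 = -(e j u * e (j + 1) u))
    (inc : ∀ j, j + 1 < n → ∀ᶠ u in 𝓝 ((t₀ : ℂ), (0 : ℂ)),
      P (j + 1) u - e (j + 1) u ^ 2 * Q (j + 1) u = P j u - e (j + 1) u ^ 2 * Q j u)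
    (law : ∀ j < n, ∀ᶠ u in 𝓝 ((t₀ : ℂ), (0 : ℂ)),
      dt (P j) u = e j u * e (j + 1) u * dt (Q j) u ∧
      ds (P j) u = e j u * e (j + 1) u * ds (Q j) u)
    (hq : ∀ j < n, dt (Q j) ((t₀ : ℂ), 0) ≠ 0) (hE' : ∀ j < n, dt (E j) ((t₀ : ℂ), 0) ≠ 0)
    (kind : ∀ j < n, (∀ᶠ t in 𝓝 (t₀ : ℂ), e (j + 1) (t, 0) = e j (t, 0)) ∨
      e (j + 1) ((t₀ : ℂ), 0) ≠ e j ((t₀ : ℂ), 0))
    (o0 : ∀ᶠ u in 𝓝 ((t₀ : ℂ), (0 : ℂ)), e 0 u = I * Complex.exp (I * nat α N 0 u) ∧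
      P 0 u - e 0 u ^ 2 * Q 0 u = 2 * nat p N 0 u * Complex.exp (I * nat α N 0 u)) :
    ∃ (x : ℕ → (ℂ × ℂ → ℂ) × (ℂ × ℂ → ℂ)) (b : ℕ → (ℂ → ℂ) × (ℂ × ℂ → ℂ)),
      x 0 = (nat α 1 0, nat p 1 0) ∧ (∀ j ≤ n, LineP N n t₀ e P Q j (x j)) ∧
      ∀ j < n, LetP N t₀ e P Q E j (x j) (x (j + 1)) (b j) := by
  have L := T.ln
  have hpos : 0 < N := hN
  have hnat : ∀ (f : ℂ → ℂ → ℂ) (u : ℂ × ℂ), nat f 1 0 (pw N u) = nat f N 0 u := by
    intro f u
    simp [nat, pw]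
  have hA : AnalyticAt ℂ (nat α 1 0) ((t₀ : ℂ), 0) :=
    nat_an L.jα (by rw [sub_zero' (le_refl 1)]; exact real_mem L t₀ 0)
  have hS : AnalyticAt ℂ (nat p 1 0) ((t₀ : ℂ), 0) :=
    nat_an L.jp (by rw [sub_zero' (le_refl 1)]; exact real_mem L t₀ 0)
  refine chain_choice n (LineP N n t₀ e P Q) (LetP N t₀ e P Q E) (nat α 1 0, nat p 1 0) ?_ ?_
  · refine ⟨hA, hS, TI_base T t₀, ?_, ?_, ?_⟩
    · filter_upwards [o0] with u a1
      show e 0 u = I * Complex.exp (I * nat α 1 0 (pw N u))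
      rw [hnat]
      exact a1.1
    · intro _
      filter_upwards [o0] with u a1
      show P 0 u - e 0 u ^ 2 * Q 0 u = 2 * nat p 1 0 (pw N u) * Complex.exp (I * nat α 1 0 (pw N u))
      rw [hnat, hnat]
      exact a1.2
    · intro i hi
      omega
  · intro j hj x hx
    obtain ⟨x1, x2, x3, x4, x5, x6⟩ := hx
    obtain ⟨h, Ψ, g1, g2, g3, g4, g5, g6, g7, g8, g9, g10⟩ := step hpos x1 x2 x3 (he j hj.le).1
      (he (j + 1) hj).1 (hP j hj) (hQ j hj) (hE j hj) (he j hj.le).2 (he (j + 1) hj).2 (hEE j hj)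
      (law j hj) (hq j hj) (hE' j hj) (kind j hj) (x4.and (x5 hj))
    refine ⟨(fun z => 2 * Ψ z - x.1 z, fun z => sup h (2 * Ψ z - x.1 z) (Ψ z)), (h, Ψ), ?_, ?_⟩
    · have a1 : AnalyticAt ℂ (fun z => 2 * Ψ z - x.1 z) ((t₀ : ℂ), 0) :=
        (analyticAt_const.mul g1).sub x1
      refine ⟨a1, analyticAt_sup g2 a1 g1, g8, ?_, ?_, ?_⟩
      · filter_upwards [g9] with u a2
        exact a2.1
      · intro hj1
        filter_upwards [g9, inc j hj1] with u a2 a3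
        rw [a3]
        exact a2.2
      · intro i hi
        obtain rfl : i = j := by omega
        filter_upwards [g9] with u a2
        exact a2.2
    · exact ⟨rfl, g1, g2, g3, g4, g5, g6, g7, g10⟩

/-- **The star word from the star chain.** -/
theorem star_of (T : Ctx κ Λ H Φ r e' α p J) {N n : ℕ} (hN : 1 ≤ N) (t₀ : ℝ)
    {e P Q E : ℕ → ℂ × ℂ → ℂ}
    (he : ∀ j ≤ n, AnalyticAt ℂ (e j) ((t₀ : ℂ), 0) ∧ e j ((t₀ : ℂ), 0) ≠ 0)
    (hP : ∀ j < n, AnalyticAt ℂ (P j) ((t₀ : ℂ), 0))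
    (hQ : ∀ j < n, AnalyticAt ℂ (Q j) ((t₀ : ℂ), 0))
    (hE : ∀ j < n, AnalyticAt ℂ (E j) ((t₀ : ℂ), 0))
    (hEE : ∀ j < n, ∀ᶠ u in 𝓝 ((t₀ : ℂ), (0 : ℂ)), E j u ^ 2 = -(e j u * e (j + 1) u))
    (inc : ∀ j, j + 1 < n → ∀ᶠ u in 𝓝 ((t₀ : ℂ), (0 : ℂ)),
      P (j + 1) u - e (j + 1) u ^ 2 * Q (j + 1) u = P j u - e (j + 1) u ^ 2 * Q j u)
    (law : ∀ j < n, ∀ᶠ u in 𝓝 ((t₀ : ℂ), (0 : ℂ)),
      dt (P j) u = e j u * e (j + 1) u * dt (Q j) u ∧
      ds (P j) u = e j u * e (j + 1) u * ds (Q j) u)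
    (hq : ∀ j < n, dt (Q j) ((t₀ : ℂ), 0) ≠ 0) (hE' : ∀ j < n, dt (E j) ((t₀ : ℂ), 0) ≠ 0)
    (kind : ∀ j < n, (∀ᶠ t in 𝓝 (t₀ : ℂ), e (j + 1) (t, 0) = e j (t, 0)) ∨
      e (j + 1) ((t₀ : ℂ), 0) ≠ e j ((t₀ : ℂ), 0))
    (tv : ∃ j < n, e (j + 1) ((t₀ : ℂ), 0) ≠ e j ((t₀ : ℂ), 0))
    (o0 : ∀ᶠ u in 𝓝 ((t₀ : ℂ), (0 : ℂ)), e 0 u = I * Complex.exp (I * nat α N 0 u) ∧
      P 0 u - e 0 u ^ 2 * Q 0 u = 2 * nat p N 0 u * Complex.exp (I * nat α N 0 u))
    (on : ∀ᶠ u in 𝓝 ((t₀ : ℂ), (0 : ℂ)), e n u = I * Complex.exp (I * nat α N n u) ∧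
      P (n - 1) u - e n u ^ 2 * Q (n - 1) u = 2 * nat p N n u * Complex.exp (I * nat α N n u))
    (hTr : ∀ j < n, ∀ (m : ℕ) (Pm : MvPolynomial (Fin (m + 2)) ℂ),
      (∀ z ∈ Str κ, Rel m Pm H z) → ∀ᶠ u in 𝓝 ((t₀ : ℂ), (0 : ℂ)),
        MvPolynomial.eval (Fin.cons (E j u)
          fun i : Fin (m + 1) => jet (E j) (P j) (Q j) i u) Pm = 0) :
    ∃ (M : ℕ → ℂ → ℂ) (a q : ℕ → ℂ × ℂ → ℂ), ∃ r0 > 0, ∀ r1, 0 < r1 → r1 ≤ r0 →
      Star κ H α p N n (Box t₀ r1) M a q := by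
  have L := T.ln
  have hpos : 0 < N := hN
  have hnat : ∀ (f : ℂ → ℂ → ℂ) (u : ℂ × ℂ), nat f 1 0 (pw N u) = nat f N 0 u := by
    intro f u
    simp [nat, pw]
  obtain ⟨x, b, hx0, hL, hR⟩ := exists_chain T hN t₀ he hP hQ hE hEE inc law hq hE' kind o0
  set pt : ℂ × ℂ := ((t₀ : ℂ), (0 : ℂ)) with hpt
  have hpw0 : pw N pt = pt := pw_zero hpos _
  have hpw : AnalyticAt ℂ (pw N) pt := analyticAt_pw N pt
  have hpwt : Tendsto (pw N) (𝓝 pt) (𝓝 pt) := tendsto_pw hpos _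
  -- the middle
  have hnext : ∀ j < n, x (j + 1) = (fun z => 2 * (b j).2 z - (x j).1 z,
      fun z => sup (b j).1 (2 * (b j).2 z - (x j).1 z) ((b j).2 z)) := fun j hj => (hR j hj).1
  have hmid : ∀ j < n, ∀ u, H456.Fct.mid (fun u => (x j).1 (pw N u))
      (fun u => (x (j + 1)).1 (pw N u)) u = (b j).2 (pw N u) := by
    intro j hj u
    show ((x j).1 (pw N u) + (x (j + 1)).1 (pw N u)) / 2 = (b j).2 (pw N u)
    rw [hnext j hj]
    show ((x j).1 (pw N u) + (2 * (b j).2 (pw N u) - (x j).1 (pw N u))) / 2 = (b j).2 (pw N u)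
    ring
  have hhalf : ∀ j < n, ∀ u, ((x (j + 1)).1 (pw N u) - (x j).1 (pw N u)) / 2 =
      (b j).2 (pw N u) - (x j).1 (pw N u) := by
    intro j hj u
    rw [hnext j hj]
    show ((2 * (b j).2 (pw N u) - (x j).1 (pw N u)) - (x j).1 (pw N u)) / 2 = _
    ring
  have hΨa : ∀ j < n, AnalyticAt ℂ (fun u => (b j).2 (pw N u)) pt := fun j hj =>
    (hR j hj).2.1.comp_of_eq hpw hpw0
  have hΨt : ∀ j < n, Tendsto (fun u => (b j).2 (pw N u)) (𝓝 pt) (𝓝 ((b j).2 pt)) := by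
    intro j hj
    have := (hΨa j hj).continuousAt.tendsto
    rwa [hpw0] at this
  -- discs of analyticity of the mirrors
  have hdisc : ∀ j, ∃ ρ > 0, j < n → ∀ z ∈ ball ((b j).2 pt) ρ, AnalyticAt ℂ (b j).1 z := by
    intro j
    by_cases hj : j < n
    · obtain ⟨ρ, hρ, hb⟩ := Metric.eventually_nhds_iff_ball.1 (hR j hj).2.2.1.eventually_analyticAt
      exact ⟨ρ, hρ, fun _ => hb⟩
    · exact ⟨1, one_pos, fun h => absurd h hj⟩
  choose ρ hρ hdisc using hdisc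
  -- the last line
  obtain ⟨j₀, hj₀, htv⟩ := tv
  have hn : n - 1 + 1 = n := by omega
  have hLn := hL n le_rfl
  have hlast1 : ∃ k : ℤ, ∀ᶠ u in 𝓝 pt, (x n).1 (pw N u) - nat α N n u = 2 * Real.pi * k := by
    refine const_branch (f := fun u => (x n).1 (pw N u) - nat α N n u) ?_ ?_
    · have a1 : AnalyticAt ℂ (fun u => (x n).1 (pw N u)) pt := hLn.1.comp_of_eq hpw hpw0
      have a2 : AnalyticAt ℂ (nat α N n) pt :=
        nat_an L.jα (by rw [sub_zero' hN]; exact real_mem L t₀ 0)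
      exact (a1.sub a2).continuousAt
    · filter_upwards [on, hLn.2.2.2.1] with u a1 a2
      have a3 : Complex.exp (I * (x n).1 (pw N u)) = Complex.exp (I * nat α N n u) :=
        mul_left_cancel₀ I_ne_zero (a2.symm.trans a1.1)
      show Complex.exp (I * ((x n).1 (pw N u) - nat α N n u)) = 1
      rw [mul_sub, Complex.exp_sub, a3, div_self (Complex.exp_ne_zero _)]
  obtain ⟨kn, hkn⟩ := hlast1
  have hlast2 : ∀ᶠ u in 𝓝 pt, (x n).2 (pw N u) = nat p N n u := by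
    filter_upwards [on, hLn.2.2.2.1, hLn.2.2.2.2.2 (n - 1) hn] with u a1 a2 a3
    have a4 : Complex.exp (I * (x n).1 (pw N u)) = Complex.exp (I * nat α N n u) :=
      mul_left_cancel₀ I_ne_zero (a2.symm.trans a1.1)
    rw [a1.2, a4] at a3
    have a5 := mul_right_cancel₀ (Complex.exp_ne_zero _) a3
    exact (mul_left_cancel₀ two_ne_zero a5).symm
  -- everything holds near the point
  have hline : ∀ᶠ u in 𝓝 pt, ∀ j ∈ Finset.range (n + 1),
      AnalyticAt ℂ (fun u => (x j).1 (pw N u)) u ∧ AnalyticAt ℂ (fun u => (x j).2 (pw N u)) u := by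
    rw [Filter.eventually_all_finset]
    intro j hj
    have hj' : j ≤ n := by have := Finset.mem_range.1 hj; omega
    exact ((hL j hj').1.comp_of_eq hpw hpw0).eventually_analyticAt.and
      ((hL j hj').2.1.comp_of_eq hpw hpw0).eventually_analyticAt
  have hlet : ∀ᶠ u in 𝓝 pt, ∀ j ∈ Finset.range n,
      (b j).2 (pw N u) ∈ ball ((b j).2 pt) (ρ j) ∧
      sup (b j).1 ((x j).1 (pw N u)) ((b j).2 (pw N u)) = (x j).2 (pw N u) ∧
      (b j).1 ((b j).2 (pw N u)) + deriv (deriv (b j).1) ((b j).2 (pw N u)) ≠ 0 ∧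
      AnalyticAt ℂ (fun u => (b j).2 (pw N u)) u ∧
      dt (fun u => (b j).2 (pw N u)) u ≠ 0 := by
    rw [Filter.eventually_all_finset]
    intro j hj
    have hj' : j < n := Finset.mem_range.1 hj
    obtain ⟨c1, c2, c3, c4, c5, c6, c7, c8, c9⟩ := hR j hj'
    have d1 : ∀ᶠ u in 𝓝 pt, (b j).2 (pw N u) ∈ ball ((b j).2 pt) (ρ j) :=
      (hΨt j hj').eventually (ball_mem_nhds _ (hρ j))
    have d2 : ∀ᶠ z in 𝓝 ((b j).2 pt), (b j).1 z + deriv (deriv (b j).1) z ≠ 0 :=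
      (c3.add c3.deriv.deriv).continuousAt.eventually_ne c6
    have d3 : dt (fun u => (b j).2 (pw N u)) pt ≠ 0 := by
      intro h0
      apply c7
      have e1 : HasDerivAt (fun t => (b j).2 (t, 0)) (dt (b j).2 ((t₀ : ℂ), 0)) (t₀ : ℂ) :=
        hasDerivAt_fst c2.differentiableAt
      have e2 : HasDerivAt (fun t => (fun u => (b j).2 (pw N u)) (t, 0))
          (dt (fun u => (b j).2 (pw N u)) ((t₀ : ℂ), 0)) (t₀ : ℂ) :=
        hasDerivAt_fst (f := fun u => (b j).2 (pw N u)) (hΨa j hj').differentiableAt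
      have e3 : (fun t => (fun u => (b j).2 (pw N u)) (t, 0)) = fun t => (b j).2 (t, 0) := by
        funext t
        show (b j).2 (pw N (t, 0)) = (b j).2 (t, 0)
        rw [pw_zero hpos]
      rw [e3] at e2
      exact (e1.unique e2).trans h0
    filter_upwards [d1, hpwt.eventually c8, (hΨt j hj').eventually d2,
      (hΨa j hj').eventually_analyticAt,
      (analyticAt_dt (hΨa j hj')).continuousAt.eventually_ne d3] with u f1 f2 f3 f4 f5
    exact ⟨f1, f2, f3, f4, f5⟩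
  -- kinds
  have hkind : ∀ j, ∃ ρ' > 0, j < n →
      (Tv (Box (t₀ : ℂ) ρ') (fun u => (x j).1 (pw N u)) (fun u => (x (j + 1)).1 (pw N u)) ∨
        (Gl (Box (t₀ : ℂ) ρ') N (fun u => (x j).1 (pw N u)) (fun u => (x (j + 1)).1 (pw N u)) ∧
          (∀ u ∈ Box (t₀ : ℂ) ρ', u.2 ≠ 0 →
            Complex.sin (((x (j + 1)).1 (pw N u) - (x j).1 (pw N u)) / 2) ≠ 0) ∧
          e (j + 1) pt = e j pt)) := by
    intro j
    by_cases hj : j < n
    swap
    · exact ⟨1, one_pos, fun h => absurd h hj⟩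
    obtain ⟨c1, c2, c3, c4, c5, c6, c7, c8, c9⟩ := hR j hj
    have hAa : AnalyticAt ℂ (fun u => (x j).1 (pw N u)) pt := (hL j hj.le).1.comp_of_eq hpw hpw0
    rcases c9 with ⟨c10, c11⟩ | ⟨k, D, D1, D2, D3⟩
    · have d1 : ContinuousAt (fun u => Complex.sin ((b j).2 (pw N u) - (x j).1 (pw N u))) pt := by
        have := ((hΨa j hj).sub hAa).continuousAt
        exact Complex.continuous_sin.continuousAt.comp this
      have d2 : Complex.sin ((b j).2 (pw N pt) - (x j).1 (pw N pt)) ≠ 0 := by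
        rw [hpw0]; exact c11
      obtain ⟨ρ', hρ', hb⟩ := Metric.eventually_nhds_iff_ball.1 (d1.eventually_ne d2)
      refine ⟨ρ', hρ', fun _ => Or.inl ?_⟩
      intro u hu
      show Complex.sin (((x (j + 1)).1 (pw N u) - (x j).1 (pw N u)) / 2) ≠ 0
      rw [hhalf j hj]
      apply hb
      have : u ∈ ball (t₀ : ℂ) ρ' ×ˢ ball (0 : ℂ) ρ' := hu
      rwa [ball_prod_same] at this
    · have hDa : AnalyticAt ℂ (fun u => D (pw N u)) pt := D1.comp_of_eq hpw hpw0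
      have hD0 : D (pw N pt) ≠ 0 := by rw [hpw0]; exact D2
      have h1 : ContinuousAt (fun u : ℂ × ℂ => ‖u.2 ^ N * D (pw N u)‖) pt := by
        have h0 : ContinuousAt (fun u : ℂ × ℂ => u.2 ^ N * D (pw N u)) pt :=
          (continuousAt_snd.pow N).mul hDa.continuousAt
        exact h0.norm
      have h2 : ∀ᶠ u in 𝓝 pt, ‖u.2 ^ N * D (pw N u)‖ < 1 := by
        apply h1.eventually_lt_const
        simp [hpt, zero_pow (by omega : N ≠ 0)]
      obtain ⟨ρ', hρ', hb⟩ := Metric.eventually_nhds_iff_ball.1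
        (hDa.eventually_analyticAt.and ((hDa.continuousAt.eventually_ne hD0).and
          ((hpwt.eventually D3).and h2)))
      have hB : ∀ u ∈ Box (t₀ : ℂ) ρ', u ∈ ball pt ρ' := by
        intro u hu
        have : u ∈ ball (t₀ : ℂ) ρ' ×ˢ ball (0 : ℂ) ρ' := hu
        rwa [ball_prod_same] at this
      refine ⟨ρ', hρ', fun _ => Or.inr ⟨⟨k, fun u => D (pw N u), fun u hu => (hb u (hB u hu)).1,
        fun u hu => (hb u (hB u hu)).2.1, ?_⟩, ?_, ?_⟩⟩
      · intro u hu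
        have a1 := (hb u (hB u hu)).2.2.1
        have a2 := hhalf j hj u
        have a3 : (pw N u).2 = u.2 ^ N := rfl
        rw [a3] at a1
        show (x (j + 1)).1 (pw N u) - (x j).1 (pw N u) = 2 * Real.pi * k + 2 * u.2 ^ N * D (pw N u)
        linear_combination 2 * a2 + 2 * a1
      · intro u hu hu2
        obtain ⟨a0, a1, a2, a4⟩ := hb u (hB u hu)
        have a3 : (pw N u).2 = u.2 ^ N := rfl
        rw [a3] at a2
        rw [hhalf j hj, a2, Complex.sin_add, sin_pi_int, zero_mul, zero_add]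
        have b1 : Complex.cos (Real.pi * k) ≠ 0 := by
          intro h0
          have := cos_pi_sq k
          rw [h0] at this
          norm_num at this
        exact mul_ne_zero b1 (sin_ne (mul_ne_zero (pow_ne_zero _ hu2) a1) a4)
      · have a1 := (hL j hj.le).2.2.2.1.self_of_nhds
        have a2 := (hL (j + 1) hj).2.2.2.1.self_of_nhds
        rw [a1, a2]
        congr 1
        rw [hnext j hj]
        have a3 : (b j).2 pt - (x j).1 pt = Real.pi * k + pt.2 * D pt := D3.self_of_nhds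
        have a4 : pt.2 = 0 := rfl
        rw [a4, zero_mul, add_zero] at a3
        show Complex.exp (I * (2 * (b j).2 (pw N pt) - (x j).1 (pw N pt))) =
          Complex.exp (I * (x j).1 (pw N pt))
        rw [hpw0]
        have a5 : I * (2 * (b j).2 pt - (x j).1 pt) = I * (x j).1 pt + k * (2 * Real.pi * I) := by
          linear_combination (2 * I) * a3
        rw [a5, Complex.exp_add, Complex.exp_int_mul_two_pi_mul_I, mul_one]
  choose ρ' hρ' hkind using hkind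
  obtain ⟨r2, hr2, hb⟩ := Metric.eventually_nhds_iff_ball.1
    (hline.and (hlet.and (hkn.and hlast2)))
  -- the radius
  obtain ⟨r3, hr3, hr3'⟩ := exists_min ρ' hρ' n
  refine ⟨fun j => (b j).1, fun j u => (x j).1 (pw N u), fun j u => (x j).2 (pw N u),
    min r2 r3, lt_min hr2 hr3, ?_⟩
  intro r1 hr1 hr1'
  have hB : ∀ u ∈ Box (t₀ : ℂ) r1, u ∈ ball pt r2 := by
    intro u hu
    have hu1 : dist u.1 (t₀ : ℂ) < r1 := hu.1
    have hu2 : dist u.2 (0 : ℂ) < r1 := hu.2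
    rw [mem_ball, Prod.dist_eq]
    have := hr1'.trans (min_le_left r2 r3)
    exact max_lt (hu1.trans_le this) (hu2.trans_le this)
  have hB' : ∀ j < n, Box (t₀ : ℂ) r1 ⊆ Box (t₀ : ℂ) (ρ' j) := by
    intro j hj
    have h1 : r1 ≤ ρ' j := (hr1'.trans (min_le_right r2 r3)).trans (hr3' j hj)
    exact Set.prod_mono (ball_subset_ball h1) (ball_subset_ball h1)
  have a1 : ∀ u ∈ Box (t₀ : ℂ) r1, ∀ j ≤ n,
      AnalyticAt ℂ (fun u => (x j).1 (pw N u)) u ∧ AnalyticAt ℂ (fun u => (x j).2 (pw N u)) u :=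
    fun u hu j hj => (hb u (hB u hu)).1 j (Finset.mem_range.2 (by omega))
  have a2 := fun u (hu : u ∈ Box (t₀ : ℂ) r1) j (hj : j < n) =>
    (hb u (hB u hu)).2.1 j (Finset.mem_range.2 hj)
  refine { sw := ?_, a0 := ?_, q0 := ?_, an := ?_, qn := ?_, tr := ?_, tv := ?_ }
  · exact
      { aA := fun j hj u hu => (a1 u hu j hj).1
        qA := fun j hj u hu => (a1 u hu j hj).2
        mA := fun j hj u hu => by
          rw [hmid j hj]
          exact hdisc j hj _ (a2 u hu j hj).1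
        lt := fun j hj u hu => by
          have c1 := (a2 u hu j hj).2.1
          have c2 := hmid j hj u
          have c3 := hhalf j hj u
          have c4 : ((x j).1 (pw N u) + (x (j + 1)).1 (pw N u)) / 2 = (b j).2 (pw N u) := c2
          refine ⟨?_, ?_⟩
          · show (x j).2 (pw N u) = (b j).1 (((x j).1 (pw N u) + (x (j + 1)).1 (pw N u)) / 2) *
              Complex.cos (((x (j + 1)).1 (pw N u) - (x j).1 (pw N u)) / 2) -
              deriv (b j).1 (((x j).1 (pw N u) + (x (j + 1)).1 (pw N u)) / 2) *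
              Complex.sin (((x (j + 1)).1 (pw N u) - (x j).1 (pw N u)) / 2)
            rw [c4, c3, ← c1]
            rfl
          · show (x (j + 1)).2 (pw N u) =
              (b j).1 (((x j).1 (pw N u) + (x (j + 1)).1 (pw N u)) / 2) *
              Complex.cos (((x (j + 1)).1 (pw N u) - (x j).1 (pw N u)) / 2) +
              deriv (b j).1 (((x j).1 (pw N u) + (x (j + 1)).1 (pw N u)) / 2) *
              Complex.sin (((x (j + 1)).1 (pw N u) - (x j).1 (pw N u)) / 2)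
            rw [c4, c3, hnext j hj]
            show sup (b j).1 (2 * (b j).2 (pw N u) - (x j).1 (pw N u)) ((b j).2 (pw N u)) = _
            unfold sup
            have c5 : (b j).2 (pw N u) - (2 * (b j).2 (pw N u) - (x j).1 (pw N u)) =
                -((b j).2 (pw N u) - (x j).1 (pw N u)) := by ring
            rw [c5, Complex.cos_neg, Complex.sin_neg]
            ring
        kind := fun j hj => by
          rcases hkind j hj with h1 | ⟨⟨k, D, D1, D2, D3⟩, _, _⟩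
          · left
            exact fun u hu => h1 u (hB' j hj hu)
          · right
            exact ⟨k, D, fun u hu => D1 u (hB' j hj hu), fun u hu => D2 u (hB' j hj hu),
              fun u hu => D3 u (hB' j hj hu)⟩
        sn := fun j hj u hu hu2 => by
          rcases hkind j hj with h1 | ⟨_, h2, _⟩
          · exact h1 u (hB' j hj hu)
          · exact h2 u (hB' j hj hu) hu2
        vt := fun j hj u hu => by
          obtain ⟨c1, c2, c3, c4, c5⟩ := a2 u hu j hj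
          have c6 : (fun t => H456.Fct.mid (fun u => (x j).1 (pw N u))
              (fun u => (x (j + 1)).1 (pw N u)) (t, u.2)) =
              fun t => (fun u => (b j).2 (pw N u)) (t, u.2) := by
            funext t
            exact hmid j hj _
          rw [c6, (hasDerivAt_fst (f := fun u => (b j).2 (pw N u)) (t := u.1) (s := u.2)
            c4.differentiableAt).deriv]
          exact c5
        curv := fun j hj u hu => by
          rw [hmid j hj]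
          exact (a2 u hu j hj).2.2.1 }
  · intro u hu
    show (x 0).1 (pw N u) = nat α N 0 u
    rw [hx0]
    exact hnat α u
  · intro u hu
    show (x 0).2 (pw N u) = nat p N 0 u
    rw [hx0]
    exact hnat p u
  · refine ⟨kn, fun u hu => ?_⟩
    have c1 := (hb u (hB u hu)).2.2.1
    show (x n).1 (pw N u) = nat α N n u + 2 * Real.pi * kn
    linear_combination c1
  · intro u hu
    exact (hb u (hB u hu)).2.2.2
  · -- transfer of the relations
    intro j hj u hu m Pm hrel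
    obtain ⟨c1, c2, c3, c4, c5, c6, c7, c8, c9⟩ := hR j hj
    set G := (b j).1 with hG
    set F : ℂ → ℂ := fun z => MvPolynomial.eval (Fin.cons (exp (I * z))
      fun i : Fin (m + 1) => iteratedDeriv i G z) Pm with hF
    have hFa : AnalyticOnNhd ℂ F (ball ((b j).2 pt) (ρ j)) := fun z hz =>
      analyticAt_rel Pm (hdisc j hj z hz)
    have h1 : ∀ᶠ u in 𝓝 pt, F ((b j).2 (pw N u)) = 0 := by
      have hj1 : ∀ᶠ u in 𝓝 pt, ∀ i : Fin (m + 1),
          jet (E j) (P j) (Q j) i u = iteratedDeriv i G ((b j).2 (pw N u)) := by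
        rw [Filter.eventually_all]
        intro i
        have hGa : AnalyticAt ℂ G ((b j).2 (pw N pt)) := by rw [hpw0]; exact c3
        have hd0 : dt (fun u => (b j).2 (pw N u)) pt ≠ 0 := by
          have := (hlet.self_of_nhds j (Finset.mem_range.2 hj)).2.2.2.2
          exact this
        exact jet_eq (ψ := fun u => (b j).2 (pw N u)) (hΨa j hj) hGa hd0 c4 c5 i
      filter_upwards [hj1, hTr j hj m Pm hrel, c4] with u b1 b2 b3
      rw [← b2]
      simp only [hF]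
      congr 1
      rw [b3]
      congr 1
      congr 1
      funext i
      exact (b1 i).symm
    have h2 : ∀ᶠ z in 𝓝 ((b j).2 pt), F z = 0 := by
      obtain ⟨Tz, hTa, hT0, hTe, hTu⟩ := exists_T c2 c7
      have e1 : ∀ᶠ t in 𝓝 (t₀ : ℂ), F ((b j).2 (t, 0)) = 0 := by
        filter_upwards [(tendsto_t (t₀ : ℂ)).eventually h1] with t b1
        rwa [pw_zero hpos] at b1
      have e2 : Tendsto (fun z : ℂ => Tz (z, 0)) (𝓝 ((b j).2 pt)) (𝓝 (t₀ : ℂ)) := by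
        have := hTa.continuousAt.tendsto.comp (tendsto_t ((b j).2 pt))
        rwa [hT0] at this
      filter_upwards [e2.eventually e1, (tendsto_t ((b j).2 pt)).eventually hTe] with z b1 b2
      have b3 : (b j).2 (Tz (z, 0), 0) = z := b2
      rwa [b3] at b1
    have h3 : ∀ z ∈ ball ((b j).2 pt) (ρ j), F z = 0 := by
      intro z hz
      exact hFa.eqOn_zero_of_preconnected_of_eventuallyEq_zero
        (convex_ball _ _).isPreconnected (mem_ball_self (hρ j)) h2 hz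
    have h4 : (b j).2 (pw N u) ∈ ball ((b j).2 pt) (ρ j) := (a2 u hu j hj).1
    rw [hmid j hj]
    filter_upwards [isOpen_ball.mem_nhds h4] with z hz
    exact h3 z hz
  · refine ⟨j₀, hj₀, ?_⟩
    rcases hkind j₀ hj₀ with h1 | ⟨_, _, h3⟩
    · exact fun u hu => h1 u (hB' j₀ hj₀ hu)
    · exact absurd h3 htv

end Vale.Agent.P097.H123.Star
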